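import Vale.Agent.P329.H157.Main
import Mathlib.GroupTheory.PGroup
import Mathlib.GroupTheory.QuotientGroup.Basic

namespace Vale.Agent.P329.H157

variable {G : Type} [Group G]

/-- The filtration of the functions on `G` by the augmentation ideal. -/
def Fil : ℕ → (G → ZMod 2) → Prop
  | 0, v => v = fun _ => 0
  | k + 1, v => ∀ g : G, Fil k fun x => v (x * g) + v x

theorem Fil.comp {H : Type} [Group H] (q : G →* H) :
    ∀ (k : ℕ) (w : H → ZMod 2), Fil k w → Fil k fun x : G => w (q x) := by
  intro k
  induction k with
  | zero =>
    intro w hw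
    rw [Fil] at hw
    subst hw
    rfl
  | succ k ih =>
    intro w hw g
    have := ih _ (hw (q g))
    refine Eq.mp (congrArg (Fil k) ?_) this
    funext x
    simp [map_mul]

theorem Fil.central {z : G} (hz : ∀ g : G, g * z = z * g) {k' : ℕ}
    (h : ∀ v : G → ZMod 2, (∀ x, v (x * z) = v x) → Fil k' v) :
    ∀ (N : ℕ) (v : G → ZMod 2), Fil N (fun x => v (x * z) + v x) → Fil (N + k') v := by
  intro N
  induction N with
  | zero =>
    intro v hv
    rw [Fil] at hv
    rw [Nat.zero_add]
    apply h
    intro x
    have h1 := congrFun hv x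
    have h2 := two_eq (v x)
    have h3 : v (x * z) + v x = v x + v x := by rw [h2]; exact h1
    exact add_right_cancel h3
  | succ N ih =>
    intro v hv
    rw [Nat.succ_add]
    intro g
    apply ih
    refine Eq.mp (congrArg (Fil N) ?_) (hv g)
    funext x
    change v (x * g * z) + v (x * g) + (v (x * z) + v x) =
      v (x * z * g) + v (x * z) + (v (x * g) + v x)
    rw [mul_assoc x g z, hz g, ← mul_assoc]
    ring

/-- Nilpotency of the augmentation ideal of a finite `2`-group. -/
theorem fil_all : ∀ (n : ℕ) (G : Type) [Group G] [Finite G], Nat.card G = n → IsPGroup 2 G →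
    ∃ k, ∀ v : G → ZMod 2, Fil k v := by
  intro n
  induction n using Nat.strong_induction_on with
  | _ n ih =>
    intro G _ _ hn hG
    rcases subsingleton_or_nontrivial G with hs | hnt
    · refine ⟨1, fun v g => ?_⟩
      funext x
      rw [Subsingleton.elim (x * g) x]
      exact two_eq _
    · have hfact : Fact (Nat.Prime 2) := ⟨Nat.prime_two⟩
      have hc : Nontrivial (Subgroup.center G) := hG.center_nontrivial
      have hcp : IsPGroup 2 (Subgroup.center G) := hG.to_subgroup _
      have hdvd : 2 ∣ Nat.card (Subgroup.center G) := by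
        obtain ⟨m, hm⟩ := IsPGroup.iff_card.mp hcp
        have h1 : 1 < Nat.card (Subgroup.center G) := Finite.one_lt_card
        rw [hm] at h1 ⊢
        rcases Nat.eq_zero_or_pos m with rfl | hm0
        · simp at h1
        · exact dvd_pow_self 2 (by omega)
      obtain ⟨⟨z, hzc⟩, hz⟩ := exists_prime_orderOf_dvd_card' 2 hdvd
      have hzcomm : ∀ g : G, g * z = z * g := fun g => Subgroup.mem_center_iff.mp hzc g
      have hz2 : z * z = 1 := by
        have h1 := pow_orderOf_eq_one (⟨z, hzc⟩ : Subgroup.center G)
        rw [hz, pow_two] at h1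
        exact congrArg Subtype.val h1
      have hz1 : z ≠ 1 := by
        intro h
        have h1 : (⟨z, hzc⟩ : Subgroup.center G) = 1 := Subtype.ext h
        rw [h1, orderOf_one] at hz
        omega
      let H : Subgroup G := Subgroup.zpowers z
      have hHz : ∀ h ∈ H, h = 1 ∨ h = z := by
        rintro h ⟨m, rfl⟩
        have h2 : z ^ (2 : ℤ) = 1 := by
          rw [show (2 : ℤ) = 1 + 1 by norm_num, zpow_add, zpow_one, hz2]
        rcases Int.even_or_odd' m with ⟨k, rfl | rfl⟩
        · left
          change z ^ (2 * k) = 1
          rw [zpow_mul, h2, one_zpow]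
        · right
          change z ^ (2 * k + 1) = z
          rw [zpow_add, zpow_mul, h2, one_zpow, zpow_one, one_mul]
      have hN : H.Normal := by
        constructor
        intro h hh g
        rcases hHz h hh with rfl | rfl
        · simp [H.one_mem]
        · have : g * h * g⁻¹ = h := by rw [hzcomm, mul_assoc, mul_inv_cancel, mul_one]
          rw [this]; exact hh
      have hlt : Nat.card (G ⧸ H) < n := by
        have h1 := Subgroup.card_eq_card_quotient_mul_card_subgroup H
        have h2 : 1 < Nat.card H := by
          have : Nontrivial H := ⟨⟨⟨z, Subgroup.mem_zpowers z⟩, 1, fun h =>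
            hz1 (congrArg Subtype.val h)⟩⟩
          exact Finite.one_lt_card
        have h3 : 0 < Nat.card (G ⧸ H) := Nat.card_pos
        rw [← hn, h1]
        nlinarith
      obtain ⟨k', hk'⟩ := ih _ hlt (G ⧸ H) rfl (hG.to_quotient H)
      have hinv : ∀ v : G → ZMod 2, (∀ x, v (x * z) = v x) → Fil k' v := by
        intro v hv
        have h1 := Fil.comp (QuotientGroup.mk' H) k'
          (fun q => v (Quotient.out q)) (hk' _)
        refine Eq.mp (congrArg (Fil k') ?_) h1
        funext x
        change v (Quotient.out (QuotientGroup.mk x : G ⧸ H)) = v x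
        obtain ⟨⟨h, hh⟩, he⟩ := QuotientGroup.mk_out_eq_mul H x
        rw [he]
        rcases hHz h hh with rfl | rfl
        · exact congrArg v (mul_one x)
        · exact hv x
      refine ⟨k' + k', fun v => Fil.central hzcomm hinv k' v (hinv _ fun x => ?_)⟩
      rw [mul_assoc, hz2, mul_one, add_comm]

/-- Functions on a `2`-group are iterated sums. -/
theorem fil_rg {α : Type} [Finite α] (φ : α → G) : ∀ (k : ℕ) (v : G → ZMod 2), Fil k v →
    RG (fun _ => 0) (fun _ => 1) 0 0 k fun X : List α => v (X.reverse.map φ).prod := by
  classical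
  have := Fintype.ofFinite α
  intro k
  induction k with
  | zero =>
    intro v hv
    rw [Fil] at hv
    subst hv
    exact RG.zero
  | succ k ih =>
    intro v hv
    have h1 : RG (fun _ => 0) (fun _ => 1) 0 0 (k + 1) fun X : List α =>
        ∑ b : α, TT b (fun X => 1 * (v ((X.reverse.map φ).prod * φ b) +
          v (X.reverse.map φ).prod)) X :=
      RG.sum Finset.univ _ fun b _ => RG.T k b _ (ih _ (hv (φ b)))
    refine (RG.add _ _ _ h1 (RG.loc _ _ (Loc.const (v 1)))).cast fun X => ?_
    induction X with
    | nil => simp [TT]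
    | cons x X ihX =>
      simp only [TT]
      rw [Finset.sum_add_distrib]
      rw [Finset.sum_ite_eq]
      rw [if_pos (Finset.mem_univ x)]
      have h2 : ((x :: X).reverse.map φ).prod = (X.reverse.map φ).prod * φ x := by
        rw [List.reverse_cons, List.map_append, List.prod_append]; simp
      rw [h2, ← ihX]
      have h3 := two_eq (v (X.reverse.map φ).prod)
      rw [← ihX] at h3
      linear_combination h3

/-- Every language recognised by a finite `2`-group has star height at most one. -/
theorem two_group {α : Type} [Finite α] {G : Type} [Group G] [Finite G] (hG : IsPGroup 2 G)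
    (φ : α → G) (S : Set G) : SH 1 {w : List α | (w.map φ).prod ∈ S} := by
  classical
  obtain ⟨k, hk⟩ := fil_all _ G rfl hG
  have h1 := letters_sh (fil_rg φ k (fun g => if g ∈ S then 1 else 0) (hk _))
  refine Eq.mp (congrArg (SH 1) ?_) h1
  ext w
  change (if (w.reverse.reverse.map φ).prod ∈ S then (1 : ZMod 2) else 0) = 1 ↔ _
  rw [List.reverse_reverse]
  by_cases h : (w.map φ).prod ∈ S
  · rw [if_pos h]; exact ⟨fun _ => h, fun _ => rfl⟩
  · rw [if_neg h]
    exact ⟨fun h' => absurd h' (by decide), fun h' => absurd h' h⟩

end Vale.Agent.P329.H157
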