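import Vale.Agent.P329.H157.Hist

namespace Vale.Agent.P329.H157

variable {α B B' : Type}

/-- The function `F` of the label history is decided by languages of star height one. -/
def Cap (D : B → Set (List α)) (F : List B → ZMod 2) : Prop := SH 1 (subL D {X | F X = 1})

theorem subL_fin {k : ℕ} {D : B → Set (List α)} (hD : Good D) {L : Set (List B)}
    (hL : L.Finite) : SH k (subL D L) := by
  have := hL.to_subtype
  have h1 : SH k (⋃ X : L, sub D X.1) := SH.iUnion fun X => (hD.sub_sf X.1).of_zero
  refine Eq.mp (congrArg (SH k) ?_) h1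
  ext u
  simp only [Set.mem_iUnion]
  constructor
  · rintro ⟨X, hu⟩; exact ⟨X.1, X.2, hu⟩
  · rintro ⟨X, hX, hu⟩; exact ⟨⟨X, hX⟩, hu⟩

set_option linter.unusedSectionVars false

section closure

variable [Finite B] {D : B → Set (List α)} {F G : List B → ZMod 2}

theorem Cap.compl (hD : Good D) (h : Cap D F) : SH 1 (subL D {X | F X = 0}) := by
  have h1 : {X | F X = 0} = {X | F X = 1}ᶜ := by
    ext X
    rcases zmod2 (F X) with h | h <;> simp [h]
  rw [h1, subL_compl hD.toPC]
  exact hD.univ_sh.diff h

theorem Cap.cast (h : Cap D F) (e : ∀ X, F X = G X) : Cap D G := by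
  rwa [show G = F from (funext e).symm]

theorem Cap.zero (hD : Good D) : Cap D fun _ => 0 := by
  have : {X : List B | (0 : ZMod 2) = 1} = ∅ := by
    ext X; simp
  rw [Cap, this]
  exact subL_fin hD Set.finite_empty

theorem Cap.add (hD : Good D) (h : Cap D F) (h' : Cap D G) : Cap D fun X => F X + G X := by
  have h1 : {X | F X + G X = 1} =
      ({X | F X = 1} ∩ {X | G X = 0}) ∪ ({X | F X = 0} ∩ {X | G X = 1}) := by
    ext X
    have h0 : (1 : ZMod 2) + 1 = 0 := rfl
    rcases zmod2 (F X) with h | h <;> rcases zmod2 (G X) with h2 | h2 <;> simp [h, h2, h0]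
  rw [Cap, h1, subL_union, subL_inter hD.toPC, subL_inter hD.toPC]
  exact (SH.inter h (Cap.compl hD h')).union (SH.inter (Cap.compl hD h) h')

theorem Cap.mul (hD : Good D) (h : Cap D F) (h' : Cap D G) : Cap D fun X => F X * G X := by
  have h1 : {X | F X * G X = 1} = {X | F X = 1} ∩ {X | G X = 1} := by
    ext X
    rcases zmod2 (F X) with h | h <;> rcases zmod2 (G X) with h2 | h2 <;> simp [h, h2]
  rw [Cap, h1, subL_inter hD.toPC]
  exact SH.inter h h'

theorem Cap.sp (hD : Good D) {P : (List B → ZMod 2) → Prop} (h : Sp P F)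
    (hP : ∀ F, P F → Cap D F) : Cap D F := by
  induction h with
  | zero => exact Cap.zero hD
  | of F hF => exact hP F hF
  | add F G _ _ ih1 ih2 => exact Cap.add hD ih1 ih2

theorem Cap.loc0 (hD : Good D) {c : ℕ} (h : Loc 0 c F) : Cap D F := by
  have : Finite {w : List B // w.length ≤ c} := (List.finite_length_le B c).to_subtype
  have h1 : SH 1 (⋃ w : {w : List B // w.length ≤ c}, ⋃ _ : F w.1 = 1,
      subL D (if w.1.length < c then {w.1} else P329.cat {w.1} Set.univ)) := by
    refine SH.iUnion fun w => SH.iUnion_prop fun _ => ?_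
    by_cases hw : w.1.length < c
    · rw [if_pos hw]; exact subL_fin hD (Set.finite_singleton _)
    · rw [if_neg hw, subL_cat]
      exact hD.univ_sh.cat (subL_fin hD (Set.finite_singleton _))
  refine Eq.mp (congrArg (SH 1) ?_) h1
  simp_rw [← subL_iUnion]
  congr 1
  ext X
  simp only [Set.mem_iUnion]
  constructor
  · rintro ⟨w, hw, hX⟩
    change F X = 1
    by_cases hw2 : w.1.length < c
    · rw [if_pos hw2, Set.mem_singleton_iff] at hX
      rw [hX]; exact hw
    · rw [if_neg hw2] at hX
      obtain ⟨v, hv, Y, -, rfl⟩ := hX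
      rw [Set.mem_singleton_iff] at hv
      subst hv
      rw [← hw]
      apply h
      · rw [pow_zero, Nat.mod_one, Nat.mod_one]
      · have := w.2
        rw [List.take_left' (by omega), List.take_of_length_le (by omega)]
  · intro hX
    refine ⟨⟨X.take c, by rw [List.length_take]; omega⟩, ?_, ?_⟩
    · change F (X.take c) = 1
      rw [← show F X = 1 from hX]
      apply h
      · rw [pow_zero, Nat.mod_one, Nat.mod_one]
      · rw [List.take_take, Nat.min_self]
    · by_cases hw2 : (X.take c).length < c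
      · rw [if_pos hw2, Set.mem_singleton_iff]
        rw [List.length_take] at hw2
        exact (List.take_of_length_le (by omega)).symm
      · rw [if_neg hw2]
        exact ⟨_, rfl, X.drop c, trivial, List.take_append_drop c X⟩

/-- blocks -/
abbrev Bk (B : Type) (K : ℕ) : Type := {X : List B // X.length = K}

instance (K : ℕ) : Finite (Bk B K) := (List.finite_length_eq B K).to_subtype

theorem bk_len {m : ℕ} (b : Bk B (2 ^ m)) : (b.1).length = 2 ^ m := b.2

theorem bk_surj {m : ℕ} (X : List B) (hX : X.length = 2 ^ m) :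
    ∃ b : Bk B (2 ^ m), b.1 = X := ⟨⟨X, hX⟩, rfl⟩

theorem Good.bk (hD : Good D) (m : ℕ) : Good (H157.blk D (Subtype.val : Bk B (2 ^ m) → List B)) :=
  hD.blk bk_len Subtype.val_injective bk_surj

theorem Cap.blk (hD : Good D) (m : ℕ)
    (h : ∀ v : List B, v.length < 2 ^ m → Cap (blk D (Subtype.val : Bk B (2 ^ m) → List B))
      fun Ω => F (v ++ (Ω.map Subtype.val).flatten)) : Cap D F := by
  have : Finite {w : List B // w.length < 2 ^ m} :=
    (List.finite_length_lt B (2 ^ m)).to_subtype
  have h1 : SH 1 (⋃ v : {w : List B // w.length < 2 ^ m},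
      subL D (P329.cat {v.1} {X | ∃ Ω ∈ {Ω : List (Bk B (2 ^ m)) |
        F (v.1 ++ (Ω.map Subtype.val).flatten) = 1},
          X ∈ subf (fun b : Bk B (2 ^ m) => ({b.1} : Set (List B))) Ω})) := by
    refine SH.iUnion fun v => ?_
    rw [subL_cat]
    refine SH.cat ?_ (subL_fin hD (Set.finite_singleton _))
    rw [← subL_ext]
    exact h v.1 v.2
  refine Eq.mp (congrArg (SH 1) ?_) h1
  rw [← subL_iUnion]
  congr 1
  ext X
  simp only [Set.mem_iUnion]
  constructor
  · rintro ⟨v, v', hv, Y, ⟨Ω, hΩ, hY⟩, rfl⟩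
    rw [Set.mem_singleton_iff] at hv
    subst hv
    rw [subf_single, Set.mem_singleton_iff] at hY
    subst hY
    exact hΩ
  · intro hX
    have hp : 0 < 2 ^ m := by positivity
    have hr : (X.take (X.length % 2 ^ m)).length = X.length % 2 ^ m := by
      rw [List.length_take]
      exact Nat.min_eq_left (Nat.mod_le _ _)
    obtain ⟨Ω, -, hΩ⟩ := chunk (B := B) (θ := (Subtype.val : Bk B (2 ^ m) → List B)) bk_surj
      (X.length / 2 ^ m) (X.drop (X.length % 2 ^ m)) (by
        rw [List.length_drop]
        have := Nat.div_add_mod X.length (2 ^ m)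
        omega)
    refine ⟨⟨X.take (X.length % 2 ^ m), by
      rw [hr]; exact Nat.mod_lt _ hp⟩, X.take (X.length % 2 ^ m), rfl,
      X.drop (X.length % 2 ^ m), ⟨Ω, ?_, ?_⟩, List.take_append_drop _ _⟩
    · change F (X.take _ ++ _) = 1
      rw [hΩ, List.take_append_drop]
      exact hX
    · rw [subf_single, hΩ]; rfl

theorem Cap.loc (hD : Good D) {l c : ℕ} (h : Loc l c F) : Cap D F := by
  apply Cap.blk hD l
  intro v _
  apply Cap.loc0 (hD.bk l) (c := c)
  apply h.subst
  · intro b; rw [b.2]; positivity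
  · intro b; rw [b.2]

theorem Cap.strip (hD : Good D) (a : ℕ)
    (h : ∀ Z : List B, Z.length = a → Cap D fun X => F (X ++ Z)) : Cap D F := by
  have h1 : SH 1 (subL D {X | X.length < a ∧ F X = 1} ∪ ⋃ Z : Bk B a,
      subL D (P329.cat {X | F (X ++ Z.1) = 1} {Z.1})) := by
    apply SH.union
    · exact subL_fin hD ((List.finite_length_lt B a).subset fun X hX => hX.1)
    · refine SH.iUnion fun Z => ?_
      rw [subL_cat]
      exact (subL_fin hD (Set.finite_singleton _)).cat (h Z.1 Z.2)
  refine Eq.mp (congrArg (SH 1) ?_) h1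
  rw [← subL_iUnion, ← subL_union]
  congr 1
  ext X
  simp only [Set.mem_union, Set.mem_iUnion]
  constructor
  · rintro (hX | ⟨Z, Y, hY, Z', hZ, rfl⟩)
    · exact hX.2
    · rw [Set.mem_singleton_iff] at hZ
      subst hZ
      exact hY
  · intro hX
    rcases Nat.lt_or_ge X.length a with hlt | hge
    · exact Or.inl ⟨hlt, hX⟩
    · right
      refine ⟨⟨X.drop (X.length - a), by rw [List.length_drop]; omega⟩, X.take (X.length - a),
        ?_, _, rfl, List.take_append_drop _ _⟩
      change F (X.take _ ++ X.drop _) = 1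
      rw [List.take_append_drop]
      exact hX

end closure

end Vale.Agent.P329.H157
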