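import Vale.Agent.P329.H157.Alg

namespace Vale.Agent.P329.H157

variable {α B G : Type} [Group G]

/-- Product of the labels of a history (most recent first), where the value of a label depends on
the history before it. -/
def hp (χ : List B → B → G) : List B → G
  | [] => 1
  | x :: X => hp χ X * χ X x

open Classical in
/-- Functions of a context product in a `2`-group are iterated sums. -/
theorem ctx_rg [Finite B] [Finite G] {χ : List B → B → G} {l c : ℕ}
    (hχ : ∀ (X Y : List B) (b : B), X.length % 2 ^ l = Y.length % 2 ^ l →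
      X.take c = Y.take c → χ X b = χ Y b) : ∀ (k : ℕ) (v : G → ZMod 2), Fil k v →
    RG (fun _ => 0) (fun _ => 1) l c k fun X : List B => v (hp χ X) := by
  have := Fintype.ofFinite B
  have := Fintype.ofFinite G
  intro k
  induction k with
  | zero =>
    intro v hv
    rw [Fil] at hv
    subst hv
    exact RG.zero
  | succ k ih =>
    intro v hv
    have h0 : ∀ bg : B × G, Loc l c fun X : List B => if χ X bg.1 = bg.2 then (1 : ZMod 2) else 0 := by
      intro bg X Y h1 h2
      change (if χ X bg.1 = bg.2 then (1 : ZMod 2) else 0) = if χ Y bg.1 = bg.2 then 1 else 0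
      rw [hχ X Y bg.1 h1 h2]
    have h1 : RG (fun _ => 0) (fun _ => 1) l c (k + 1) fun X : List B =>
        ∑ bg : B × G, TT bg.1 (fun X => 1 * ((if χ X bg.1 = bg.2 then (1 : ZMod 2) else 0) *
          (v (hp χ X * bg.2) + v (hp χ X)))) X :=
      RG.sum Finset.univ _ fun bg _ => RG.T k bg.1 _ (RG.mul k _ _ (h0 bg) (ih _ (hv bg.2)))
    refine (RG.add _ _ _ h1 (RG.loc _ _ (Loc.const (v 1)))).cast fun X => ?_
    induction X with
    | nil => simp [TT, hp]
    | cons x X ihX =>
      simp only [TT]
      rw [Finset.sum_add_distrib]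
      have h3 : ∑ bg : B × G, (if x = bg.1 then (1 : ZMod 2) *
          ((if χ X bg.1 = bg.2 then (1 : ZMod 2) else 0) *
          (v (hp χ X * bg.2) + v (hp χ X))) else 0) = v (hp χ X * χ X x) + v (hp χ X) := by
        rw [Finset.sum_eq_single (x, χ X x)]
        · simp
        · rintro ⟨b, g⟩ _ hne
          by_cases h4 : x = b
          · subst h4
            have h5 : χ X x ≠ g := fun h => hne (by rw [h])
            simp [h5]
          · simp [h4]
        · intro h; exact absurd (Finset.mem_univ _) h
      rw [h3, hp, ← ihX]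
      have h4 := two_eq (v (hp χ X))
      rw [← ihX] at h4
      linear_combination h4

/-- The context product theorem over good codes. -/
theorem ctx_cap [Finite α] [Finite B] [Finite G] (hG : IsPGroup 2 G) {D : B → Set (List α)}
    (hD : Good D) {χ : List B → B → G} {l c : ℕ}
    (hχ : ∀ (X Y : List B) (b : B), X.length % 2 ^ l = Y.length % 2 ^ l →
      X.take c = Y.take c → χ X b = χ Y b) (S : Set G) :
    SH 1 (subL D {X | hp χ X ∈ S}) := by
  classical
  obtain ⟨k, hk⟩ := fil_all _ G rfl hG
  have h1 := ps_all k B l c _ (ctx_rg hχ k (fun g => if g ∈ S then 1 else 0) (hk _)) α D hD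
  refine Eq.mp (congrArg (SH 1) ?_) h1
  congr 1
  ext X
  change (if hp χ X ∈ S then (1 : ZMod 2) else 0) = 1 ↔ _
  by_cases h : hp χ X ∈ S
  · rw [if_pos h]; exact ⟨fun _ => h, fun _ => rfl⟩
  · rw [if_neg h]
    exact ⟨fun h' => absurd h' (by decide), fun h' => absurd h' h⟩

/-- A factorisation in terms of pairs. -/
theorem mem_subf_iff {D : B → Set (List α)} {w : List α} : ∀ {Y : List B}, w ∈ subf D Y ↔
    ∃ L : List (B × List α), (∀ x ∈ L, x.2 ∈ D x.1) ∧ (L.map Prod.snd).flatten = w ∧
      L.map Prod.fst = Y := by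
  intro Y
  induction Y generalizing w with
  | nil =>
    rw [subf, Set.mem_singleton_iff]
    constructor
    · rintro rfl
      exact ⟨[], by simp, rfl, rfl⟩
    · rintro ⟨L, _, h2, h3⟩
      cases L with
      | nil => exact h2.symm
      | cons x L => cases h3
  | cons b Y ih =>
    rw [subf]
    constructor
    · rintro ⟨d, hd, u, hu, rfl⟩
      obtain ⟨L, h1, h2, h3⟩ := ih.mp hu
      refine ⟨(b, d) :: L, ?_, by simp [h2], by simp [h3]⟩
      intro x hx
      rcases List.mem_cons.mp hx with rfl | hx
      · exact hd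
      · exact h1 x hx
    · rintro ⟨L, h1, h2, h3⟩
      cases L with
      | nil => cases h3
      | cons x L =>
        rw [List.map_cons, List.cons.injEq] at h3
        refine ⟨x.2, ?_, (L.map Prod.snd).flatten, ?_, by rw [← h2]; simp⟩
        · rw [← h3.1]; exact h1 x List.mem_cons_self
        · exact ih.mpr ⟨L, fun y hy => h1 y (List.mem_cons_of_mem _ hy), rfl, h3.2⟩

theorem mem_sub_iff {D : B → Set (List α)} {w : List α} {X : List B} : w ∈ sub D X ↔
    ∃ L : List (B × List α), (∀ x ∈ L, x.2 ∈ D x.1) ∧ (L.map Prod.snd).flatten = w ∧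
      (L.map Prod.fst).reverse = X := by
  rw [← subf_reverse, mem_subf_iff]
  refine exists_congr fun L => and_congr_right fun _ => and_congr_right fun _ => ?_
  constructor
  · intro h; rw [h, List.reverse_reverse]
  · intro h; rw [← h, List.reverse_reverse]

/-- The product along a word, in the order of the word. -/
theorem hp_eq (l c : ℕ) (ψ : ZMod (2 ^ l) → List B → B → G) (Y : List B) :
    hp (fun X b => ψ (X.length : ZMod (2 ^ l)) (X.take c).reverse b) Y.reverse =
      (Y.zipIdx.map fun x => ψ (x.2 : ZMod (2 ^ l)) ((Y.take x.2).drop (x.2 - c)) x.1).prod := by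
  induction Y using List.reverseRecOn with
  | nil => rfl
  | append_singleton Y b ih =>
    rw [List.reverse_append, List.reverse_cons, List.reverse_nil, List.nil_append,
      List.singleton_append, hp, ih, List.zipIdx_append, List.map_append, List.prod_append]
    congr 1
    · congr 1
      apply List.map_congr_left
      rintro ⟨x, i⟩ hx
      have hi : i < Y.length := by
        have := List.mem_zipIdx hx
        omega
      change ψ _ ((Y.take i).drop (i - c)) x = ψ _ (((Y ++ [b]).take i).drop (i - c)) x
      rw [List.take_append_of_le_length hi.le]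
    · simp only [List.zipIdx_cons, List.zipIdx_nil, List.map_cons, List.map_nil, List.prod_cons,
        List.prod_nil, mul_one, Nat.zero_add, List.length_reverse]
      congr 1
      rw [List.take_append_of_le_length le_rfl, List.take_length, List.take_reverse,
        List.reverse_reverse]

theorem zmod_len {l : ℕ} {m n : ℕ} (h : m % 2 ^ l = n % 2 ^ l) :
    (m : ZMod (2 ^ l)) = (n : ZMod (2 ^ l)) := (ZMod.natCast_eq_natCast_iff' m n _).mpr h

/-- Context products over good codes, in terms of pairs. -/
theorem ctx_code [Finite α] [Finite B] [Finite G] (hG : IsPGroup 2 G) {D : B → Set (List α)}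
    (hD : Good D) (l c : ℕ) (ψ : ZMod (2 ^ l) → List B → B → G) (S : Set G) :
    SH 1 {w : List α | ∃ L : List (B × List α), (∀ x ∈ L, x.2 ∈ D x.1) ∧
      (L.map Prod.snd).flatten = w ∧
      ((L.map Prod.fst).zipIdx.map fun x => ψ (x.2 : ZMod (2 ^ l))
        (((L.map Prod.fst).take x.2).drop (x.2 - c)) x.1).prod ∈ S} := by
  have h1 := ctx_cap hG hD (χ := fun X b => ψ (X.length : ZMod (2 ^ l)) (X.take c).reverse b)
    (l := l) (c := c) (by
      intro X Y b h1 h2
      change ψ _ _ _ = ψ _ _ _
      rw [zmod_len h1, h2]) S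
  refine Eq.mp (congrArg (SH 1) ?_) h1
  ext w
  constructor
  · rintro ⟨X, hX, hw⟩
    obtain ⟨L, h2, h3, rfl⟩ := mem_sub_iff.mp hw
    refine ⟨L, h2, h3, ?_⟩
    rw [← hp_eq]
    exact hX
  · rintro ⟨L, h2, h3, h4⟩
    refine ⟨(L.map Prod.fst).reverse, ?_, mem_sub_iff.mpr ⟨L, h2, h3, rfl⟩⟩
    rw [← hp_eq] at h4
    exact h4

/-- Context products over letters. -/
theorem ctx_letters [Finite α] [Finite G] (hG : IsPGroup 2 G) (l c : ℕ)
    (ψ : ZMod (2 ^ l) → List α → α → G) (S : Set G) :
    SH 1 {w : List α | (w.zipIdx.map fun x => ψ (x.2 : ZMod (2 ^ l))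
        ((w.take x.2).drop (x.2 - c)) x.1).prod ∈ S} := by
  have h1 := ctx_cap hG (good_letters (α := α))
    (χ := fun X b => ψ (X.length : ZMod (2 ^ l)) (X.take c).reverse b)
    (l := l) (c := c) (by
      intro X Y b h1 h2
      change ψ _ _ _ = ψ _ _ _
      rw [zmod_len h1, h2]) S
  refine Eq.mp (congrArg (SH 1) ?_) h1
  ext w
  constructor
  · rintro ⟨X, hX, hw⟩
    rw [sub_letters, Set.mem_singleton_iff] at hw
    subst hw
    rw [Set.mem_ofPred_eq, ← hp_eq, List.reverse_reverse]
    exact hX
  · intro hw
    rw [Set.mem_ofPred_eq, ← hp_eq] at hw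
    exact ⟨w.reverse, hw, by rw [sub_letters, List.reverse_reverse]; rfl⟩

end Vale.Agent.P329.H157
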