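import Vale.Agent.P329.H157.Sub

namespace Vale.Agent.P329.H157

open H259 (pw pw_zero pw_succ pw_one pw_add pw_succ' pw_mul pw_length)

variable {α B B' : Type}

/-- Good labelled codes. -/
structure Good (D : B → Set (List α)) : Prop extends PC D where
  sf : ∀ b, SH 0 (D b)
  odd : ∀ v j X, 2 ≤ j → pw v j ∈ sub D X →
    (∀ i, 1 ≤ i → i < j → pw v i ∉ subL D Set.univ) → X.length % 2 = 1

/-- The label `f` has even sum on the nontrivial cycles. -/
def Null (D : B → Set (List α)) (f : B → ZMod 2) : Prop :=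
  ∀ v j X, 2 ≤ j → pw v j ∈ sub D X →
    (∀ i, 1 ≤ i → i < j → pw v i ∉ subL D Set.univ) → (X.map f).sum = 0

theorem Good.sub_sf {D : B → Set (List α)} (h : Good D) (X : List B) : SH 0 (sub D X) := by
  induction X with
  | nil => exact SH.eps
  | cons b X ih => exact ih.cat (h.sf b)

theorem Good.univ_sh [Finite B] {D : B → Set (List α)} (h : Good D) :
    SH 1 (subL D Set.univ) := by
  rw [subL_univ]
  exact (SH.iUnion h.sf).kst

/-- The block code. -/
def blk (D : B → Set (List α)) (θ : B' → List B) : B' → Set (List α) :=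
  ext D fun b => {θ b}

theorem subf_single (θ : B' → List B) (Ω : List B') :
    subf (fun b => ({θ b} : Set (List B))) Ω = {(Ω.map θ).flatten} := by
  induction Ω with
  | nil => rfl
  | cons b Ω ih =>
    rw [subf, ih]
    ext X
    constructor
    · rintro ⟨u, hu, v, hv, rfl⟩
      rw [Set.mem_singleton_iff] at hu hv
      subst hu hv
      simp
    · intro hX
      rw [Set.mem_singleton_iff] at hX
      exact ⟨_, rfl, _, rfl, by rw [hX]; simp⟩

theorem sub_blk (D : B → Set (List α)) (θ : B' → List B) (Ω : List B') :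
    sub (blk D θ) Ω = sub D (Ω.map θ).flatten := by
  rw [blk, sub_ext, subf_single, subL_single]

theorem blk_apply (D : B → Set (List α)) (θ : B' → List B) (b : B') :
    blk D θ b = sub D (θ b) := subL_single _

theorem flat_length {θ : B' → List B} {K : ℕ} (hlen : ∀ b, (θ b).length = K) (Ω : List B') :
    (Ω.map θ).flatten.length = K * Ω.length := by
  induction Ω with
  | nil => simp
  | cons b Ω ih =>
    rw [List.map_cons, List.flatten_cons, List.length_append, ih, hlen, List.length_cons]
    ring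

theorem chunk {θ : B' → List B} {K : ℕ} (hsurj : ∀ X : List B, X.length = K → ∃ b, θ b = X)
    (n : ℕ) : ∀ X : List B, X.length = K * n → ∃ Ω : List B', Ω.length = n ∧
      (Ω.map θ).flatten = X := by
  induction n with
  | zero =>
    intro X hX
    rw [Nat.mul_zero] at hX
    exact ⟨[], rfl, (List.length_eq_zero_iff.mp hX).symm⟩
  | succ n ih =>
    intro X hX
    obtain ⟨b, hb⟩ := hsurj (X.take K) (by
      rw [List.length_take, hX, Nat.mul_succ]; omega)
    obtain ⟨Ω, h1, h2⟩ := ih (X.drop K) (by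
      rw [List.length_drop, hX, Nat.mul_succ]; omega)
    exact ⟨b :: Ω, by simp [h1], by
      rw [List.map_cons, List.flatten_cons, h2, hb, List.take_append_drop]⟩

theorem pw_sum (e : B → ZMod 2) (X : List B) (t : ℕ) :
    ((pw X t).map e).sum = (t : ZMod 2) * (X.map e).sum := by
  induction t with
  | zero => simp
  | succ t ih => rw [pw_succ, List.map_append, List.sum_append, ih]; push_cast; ring

theorem sum_flatten (e : B → ZMod 2) (θ : B' → List B) (Ω : List B') :
    (((Ω.map θ).flatten).map e).sum = (Ω.map fun b => ((θ b).map e).sum).sum := by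
  induction Ω with
  | nil => simp
  | cons b Ω ih =>
    rw [List.map_cons, List.flatten_cons, List.map_append, List.sum_append, ih, List.map_cons,
      List.sum_cons]

section block

variable {D : B → Set (List α)} {θ : B' → List B} {m : ℕ}

theorem blk_core (hD : Good D)
    (hsurj : ∀ X : List B, X.length = 2 ^ m → ∃ b, θ b = X) {v : List α} {j : ℕ} {Ω : List B'}
    (hj : 1 ≤ j) (hv : pw v j ∈ sub (blk D θ) Ω)
    (hmin : ∀ i, 1 ≤ i → i < j → pw v i ∉ subL (blk D θ) Set.univ) :
    ∃ j0 X0 t, j = j0 * t ∧ 1 ≤ j0 ∧ (Ω.map θ).flatten = pw X0 t ∧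
      (∀ t', 1 ≤ t' → t' < t → ¬ 2 ^ m ∣ t' * X0.length) ∧ (2 ≤ j0 → X0.length % 2 = 1) := by
  rw [sub_blk] at hv
  obtain ⟨j0, X0, h1, h2, h3, h4, h5⟩ := hD.toPC.cyc hj ⟨_, trivial, hv⟩
  obtain ⟨t, ht, hX⟩ := h5 _ _ hv
  refine ⟨j0, X0, t, ht, h1, hX, ?_, fun h => hD.odd v j0 X0 h h2 h3⟩
  rintro t' h6 h7 ⟨n, hn⟩
  obtain ⟨Ω', -, hΩ'⟩ := chunk hsurj n (pw X0 t') (by rw [pw_length, hn])
  apply hmin (j0 * t') (Nat.mul_pos h1 h6)
    (by rw [ht]; exact Nat.mul_lt_mul_of_pos_left h7 h1)
  exact ⟨Ω', trivial, by rw [sub_blk, hΩ']; exact h4 t'⟩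

theorem blk_even (hD : Good D) (hlen : ∀ b, (θ b).length = 2 ^ m)
    (hsurj : ∀ X : List B, X.length = 2 ^ m → ∃ b, θ b = X) {v : List α} {j : ℕ} {Ω : List B'}
    (hj : 2 ≤ j) (hv : pw v j ∈ sub (blk D θ) Ω)
    (hmin : ∀ i, 1 ≤ i → i < j → pw v i ∉ subL (blk D θ) Set.univ) :
    Ω.length % 2 = 1 ∧ (1 ≤ m → ∃ X0 t, (Ω.map θ).flatten = pw X0 (2 * t)) := by
  obtain ⟨j0, X0, t, h1, h2, h3, h4, h5⟩ := blk_core hD hsurj (by omega) hv hmin
  have h6 : 2 ^ m * Ω.length = t * X0.length := by
    rw [← flat_length hlen, h3, pw_length]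
  have ht : 1 ≤ t := by
    rcases Nat.eq_zero_or_pos t with rfl | h
    · rw [Nat.mul_zero] at h1; omega
    · exact h
  rcases Nat.even_or_odd t with he | ho
  · obtain ⟨k, hk⟩ := he
    constructor
    · by_contra hne
      have hev : ∃ n, Ω.length = 2 * n := ⟨Ω.length / 2, by omega⟩
      obtain ⟨n, hn⟩ := hev
      apply h4 k (by omega) (by omega)
      refine ⟨n, ?_⟩
      rw [hn, hk] at h6
      nlinarith
    · intro _
      exact ⟨X0, k, by rw [h3]; congr 1; omega⟩
  · have hc : Nat.Coprime (2 ^ m) t := Nat.Coprime.pow_left m ho.coprime_two_left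
    have hd : 2 ^ m ∣ X0.length := hc.dvd_of_dvd_mul_left ⟨Ω.length, h6.symm⟩
    have ht1 : t = 1 := by
      by_contra hne
      exact h4 1 le_rfl (by omega) (by rwa [Nat.one_mul])
    subst ht1
    have hodd := h5 (by omega)
    rw [Nat.one_mul] at h6
    constructor
    · by_contra hne
      have : (2 ^ m * Ω.length) % 2 = 0 := by
        rw [Nat.mul_mod, show Ω.length % 2 = 0 by omega]; simp
      omega
    · intro hm
      exfalso
      have h7 : 2 ∣ 2 ^ m := dvd_pow_self 2 (by omega)
      have := h7.trans hd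
      omega

theorem Good.blk (hD : Good D) (hlen : ∀ b, (θ b).length = 2 ^ m)
    (hinj : Function.Injective θ)
    (hsurj : ∀ X : List B, X.length = 2 ^ m → ∃ b, θ b = X) : Good (blk D θ) where
  ne b hb := by
    rw [blk_apply] at hb
    have := hD.toPC.nil_mem hb
    have h2 := hlen b
    rw [this] at h2
    have : 0 < 2 ^ m := by positivity
    rw [List.length_nil] at h2
    omega
  pre b b' d d' t t' hd hd' he := by
    rw [blk_apply] at hd hd'
    rcases hD.toPC.cmp hd hd' he with ⟨Y, r, h1, h2, h3⟩ | ⟨Y, r, h1, h2, h3⟩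
    · have h4 := congrArg List.length h1
      rw [List.length_append, hlen, hlen] at h4
      have : Y = [] := List.length_eq_zero_iff.mp (by omega)
      subst this
      rw [sub, Set.mem_singleton_iff] at h2
      subst h2
      exact ⟨(hinj h1).symm, by simpa using h3.symm⟩
    · have h4 := congrArg List.length h1
      rw [List.length_append, hlen, hlen] at h4
      have : Y = [] := List.length_eq_zero_iff.mp (by omega)
      subst this
      rw [sub, Set.mem_singleton_iff] at h2
      subst h2
      exact ⟨hinj h1, by simpa using h3⟩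
  sf b := by rw [blk_apply]; exact hD.sub_sf _
  odd v j Ω hj hv hmin := (blk_even hD hlen hsurj hj hv hmin).1

theorem Null.blk (hD : Good D) (hlen : ∀ b, (θ b).length = 2 ^ m)
    (hsurj : ∀ X : List B, X.length = 2 ^ m → ∃ b, θ b = X) (hm : 1 ≤ m) (e : B → ZMod 2) :
    Null (blk D θ) fun b => ((θ b).map e).sum := by
  intro v j Ω hj hv hmin
  obtain ⟨X0, t, h⟩ := (blk_even hD hlen hsurj hj hv hmin).2 hm
  rw [← sum_flatten, h, pw_sum]
  have : ((2 * t : ℕ) : ZMod 2) = 0 := by
    push_cast
    rw [show (2 : ZMod 2) = 0 from rfl, zero_mul]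
  rw [this, zero_mul]

end block

/-! ### the walk code -/

section walk

variable {D : B → Set (List α)} {f : B → ZMod 2}

theorem zmod2 (x : ZMod 2) : x = 0 ∨ x = 1 := by
  revert x; decide

theorem map_sum_of_one {X : List B} (h : ∀ x ∈ X, f x = 1) : (X.map f).sum = (X.length : ℕ) := by
  induction X with
  | nil => simp
  | cons b X ih =>
    rw [List.map_cons, List.sum_cons, h b List.mem_cons_self,
      ih fun x hx => h x (List.mem_cons_of_mem _ hx), List.length_cons]
    push_cast; ring

theorem pw_mem_iff (P : B → Prop) (X : List B) {t : ℕ} (ht : 1 ≤ t) :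
    (∀ x ∈ pw X t, P x) ↔ ∀ x ∈ X, P x := by
  constructor
  · intro h x hx
    obtain ⟨s, rfl⟩ : ∃ s, t = s + 1 := ⟨t - 1, by omega⟩
    exact h x (by rw [pw_succ]; exact List.mem_append_left _ hx)
  · intro h
    clear ht
    induction t with
    | zero => simp
    | succ t ih =>
      intro x hx
      rw [pw_succ, List.mem_append] at hx
      rcases hx with hx | hx
      · exact h x hx
      · exact ih x hx

/-- The star of a null part of a good code is star-free. -/
theorem Good.run_sf [Finite α] [Finite B] (hD : Good D) (hf : Null D f) :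
    SH 0 (subL D {X | ∀ x ∈ X, f x = 1}) := by
  rw [subL_kst]
  apply sf_kst
  · exact SH.iUnion fun b => SH.iUnion_prop fun _ => hD.sf b
  · intro u v hu huv
    rw [← subL_kst] at hu huv ⊢
    obtain ⟨X, -, hu⟩ := hu
    obtain ⟨X', hX', huv⟩ := huv
    obtain ⟨Y, hY, hv⟩ := hD.toPC.quot hu huv
    exact ⟨Y, fun x hx => hX' x (by rw [hY]; exact List.mem_append_left _ hx), hv⟩
  · intro w n hn hw
    rw [← subL_kst] at hw ⊢
    obtain ⟨Y, hY, hw⟩ := hw
    obtain ⟨j0, X0, h1, h2, h3, h4, h5⟩ := hD.toPC.cyc hn ⟨Y, trivial, hw⟩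
    obtain ⟨t, ht, rfl⟩ := h5 _ _ hw
    have ht1 : 1 ≤ t := by
      rcases Nat.eq_zero_or_pos t with rfl | h
      · rw [Nat.mul_zero] at ht; omega
      · exact h
    have hX0 : ∀ x ∈ X0, f x = 1 := (pw_mem_iff _ X0 ht1).mp hY
    rcases Nat.lt_or_ge j0 2 with hlt | hge
    · have : j0 = 1 := by omega
      subst this
      rw [pw_one] at h2
      exact ⟨X0, hX0, h2⟩
    · exfalso
      have h6 := hD.odd w j0 X0 hge h2 h3
      have h7 := hf w j0 X0 hge h2 h3
      rw [map_sum_of_one hX0] at h7
      have h8 := (ZMod.natCast_eq_zero_iff _ 2).mp h7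
      omega

/-- number of letters outside `f` -/
def rc (f : B → ZMod 2) (X : List B) : ℕ := X.countP fun x => f x = 0

theorem rc_append (X Y : List B) : rc f (X ++ Y) = rc f X + rc f Y := List.countP_append

theorem rc_cons (x : B) (X : List B) : rc f (x :: X) = rc f X + if f x = 0 then 1 else 0 := by
  rw [rc, List.countP_cons]
  by_cases h : f x = 0 <;> simp [h, rc]

theorem rc_nil : rc f ([] : List B) = 0 := rfl

theorem rc_pw (X : List B) (t : ℕ) : rc f (pw X t) = t * rc f X := by
  induction t with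
  | zero => simp [rc_nil]
  | succ t ih => rw [pw_succ, rc_append, ih]; ring

theorem rc_sum (X : List B) : ((rc f X : ℕ) : ZMod 2) = (X.length : ℕ) + (X.map f).sum := by
  induction X with
  | nil => simp [rc_nil]
  | cons b X ih =>
    rw [rc_cons, List.length_cons, List.map_cons, List.sum_cons]
    push_cast
    rw [ih]
    rcases zmod2 (f b) with h | h
    · rw [h, if_pos rfl]; ring
    · rw [h, if_neg (by decide)]
      have : (1 : ZMod 2) + 1 = 0 := rfl
      linear_combination - this

/-- Words (as histories) of the walk code: two letters outside `f`, one of them most recent. -/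
def Walk (f : B → ZMod 2) : Set (List B) := {X | rc f X = 2 ∧ ∃ x X', X = x :: X' ∧ f x = 0}

/-- Histories which are products of walk words. -/
def WS (f : B → ZMod 2) : Set (List B) :=
  {X | rc f X % 2 = 0 ∧ (X = [] ∨ ∃ x X', X = x :: X' ∧ f x = 0)}

variable {W : B' → Set (List B)}

theorem rc_subf (hW : ∀ b, W b ⊆ Walk f) {Ω : List B'} : ∀ {X : List B}, X ∈ subf W Ω →
    rc f X = 2 * Ω.length ∧ (X = [] ∧ Ω = [] ∨ ∃ x X', X = x :: X' ∧ f x = 0) := by
  induction Ω with
  | nil =>
    intro X hX
    rw [subf, Set.mem_singleton_iff] at hX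
    subst hX
    exact ⟨rfl, Or.inl ⟨rfl, rfl⟩⟩
  | cons b Ω ih =>
    rintro _ ⟨w, hw, X, hX, rfl⟩
    obtain ⟨h1, x, w', rfl, h2⟩ := hW b hw
    refine ⟨?_, Or.inr ⟨x, w' ++ X, rfl, h2⟩⟩
    rw [rc_append, h1, (ih hX).1, List.length_cons]; ring

/-- decomposition of histories into walk words -/
theorem ws_decomp (hW : ∀ X ∈ Walk f, ∃ b, X ∈ W b) : ∀ (n : ℕ) (X : List B), X.length ≤ n →
    X ∈ WS f → ∃ Ω : List B', X ∈ subf W Ω := by
  intro n
  induction n with
  | zero =>
    intro X hX _
    have : X = [] := List.length_eq_zero_iff.mp (by omega)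
    subst this
    exact ⟨[], rfl⟩
  | succ n ih =>
    intro X hX hws
    obtain ⟨h1, rfl | ⟨x, X', rfl, hx⟩⟩ := hws
    · exact ⟨[], rfl⟩
    · -- split X' at the next letter outside f, and its end at the following one
      have key : ∀ Z : List B, ∃ p q, Z = p ++ q ∧ (∀ y ∈ p, f y = 1) ∧
          (q = [] ∨ ∃ y q', q = y :: q' ∧ f y = 0) := by
        intro Z
        induction Z with
        | nil => exact ⟨[], [], rfl, by simp, Or.inl rfl⟩
        | cons z Z ihZ =>
          rcases zmod2 (f z) with hz | hz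
          · exact ⟨[], z :: Z, rfl, by simp, Or.inr ⟨z, Z, rfl, hz⟩⟩
          · obtain ⟨p, q, rfl, hp, hq⟩ := ihZ
            exact ⟨z :: p, q, rfl, by
              intro y hy
              rcases List.mem_cons.mp hy with rfl | hy
              · exact hz
              · exact hp y hy, hq⟩
      have rc_one : ∀ p : List B, (∀ y ∈ p, f y = 1) → rc f p = 0 := by
        intro p hp
        rw [rc, List.countP_eq_zero]
        intro y hy
        rw [hp y hy]; decide
      obtain ⟨p, q, rfl, hp, hq⟩ := key X'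
      rcases hq with rfl | ⟨y, q', rfl, hy⟩
      · exfalso
        rw [rc_cons, rc_append, rc_one p hp, rc_nil, if_pos hx] at h1
        omega
      · obtain ⟨p2, q2, rfl, hp2, hq2⟩ := key q'
        have hw : x :: (p ++ (y :: p2)) ∈ Walk f := by
          refine ⟨?_, x, _, rfl, hx⟩
          rw [rc_cons, rc_append, rc_cons, rc_one p hp, rc_one p2 hp2, if_pos hx, if_pos hy]
        have hq2' : q2 ∈ WS f := by
          refine ⟨?_, hq2⟩
          rw [rc_cons, rc_append, rc_cons, rc_append, rc_one p hp, rc_one p2 hp2, if_pos hx,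
            if_pos hy] at h1
          omega
        obtain ⟨b, hb⟩ := hW _ hw
        obtain ⟨Ω, hΩ⟩ := ih q2 (by
          simp only [List.length_cons, List.length_append] at hX
          omega) hq2'
        refine ⟨b :: Ω, _, hb, _, hΩ, by simp⟩

theorem Good.walk (hD : Good D) (hf : Null D f) (hW : ∀ b, W b ⊆ Walk f)
    (hW' : ∀ X ∈ Walk f, ∃ b, X ∈ W b) (hdis : ∀ b b' X, X ∈ W b → X ∈ W b' → b = b')
    (hsf : ∀ b, SH 0 (subL D (W b))) : Good (ext D W) where
  ne b hb := by
    obtain ⟨X, hX, hu⟩ := hb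
    have := hD.toPC.nil_mem hu
    subst this
    obtain ⟨-, x, X', h, -⟩ := hW b hX
    cases h
  pre b b' d d' t t' hd hd' he := by
    obtain ⟨X, hX, hu⟩ := hd
    obtain ⟨X', hX', hu'⟩ := hd'
    have aux : ∀ {X X' Y : List B}, X ∈ Walk f → X' ∈ Walk f → X' = Y ++ X → Y = [] := by
      intro X X' Y h1 h2 h3
      obtain ⟨h4, -⟩ := h1
      obtain ⟨h5, x, X'', h6, h7⟩ := h2
      cases Y with
      | nil => rfl
      | cons y Y =>
        exfalso
        rw [h6] at h3
        rw [List.cons_append, List.cons.injEq] at h3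
        obtain ⟨rfl, rfl⟩ := h3
        rw [h6, rc_cons, if_pos h7, rc_append, h4] at h5
        omega
    rcases hD.toPC.cmp hu hu' he with ⟨Y, r, h1, h2, h3⟩ | ⟨Y, r, h1, h2, h3⟩
    · have : Y = [] := aux (hW b hX) (hW b' hX') h1
      subst this
      rw [sub, Set.mem_singleton_iff] at h2
      subst h2
      rw [List.nil_append] at h1
      rw [h1] at hX'
      exact ⟨hdis _ _ _ hX hX', by simpa using h3.symm⟩
    · have : Y = [] := aux (hW b' hX') (hW b hX) h1
      subst this
      rw [sub, Set.mem_singleton_iff] at h2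
      subst h2
      rw [List.nil_append] at h1
      rw [← h1] at hX'
      exact ⟨hdis _ _ _ hX hX', by simpa using h3⟩
  sf := hsf
  odd v j Ω hj hv hmin := by
    rw [sub_ext] at hv
    obtain ⟨X, hX, hv⟩ := hv
    obtain ⟨j0, X0, h1, h2, h3, h4, h5⟩ := hD.toPC.cyc (by omega) ⟨X, trivial, hv⟩
    obtain ⟨t, ht, rfl⟩ := h5 _ _ hv
    obtain ⟨h6, h7⟩ := rc_subf hW hX
    rw [rc_pw] at h6
    have ht1 : 1 ≤ t := by
      rcases Nat.eq_zero_or_pos t with rfl | h
      · rw [Nat.mul_zero] at ht; omega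
      · exact h
    -- head of X0
    have hhead : X0 = [] ∨ ∃ x X', X0 = x :: X' ∧ f x = 0 := by
      cases X0 with
      | nil => exact Or.inl rfl
      | cons x X' =>
        right
        refine ⟨x, X', rfl, ?_⟩
        obtain ⟨s, rfl⟩ : ∃ s, t = s + 1 := ⟨t - 1, by omega⟩
        rcases h7 with ⟨h7, -⟩ | ⟨y, Y, h7, h8⟩
        · rw [pw_succ] at h7; cases h7
        · rw [pw_succ, List.cons_append, List.cons.injEq] at h7
          rw [h7.1]; exact h8
    -- minimality
    have hmin' : ∀ t', 1 ≤ t' → t' < t → (t' * rc f X0) % 2 = 1 := by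
      intro t' h8 h9
      by_contra hne
      apply hmin (j0 * t') (Nat.mul_pos h1 h8)
        (by rw [ht]; exact Nat.mul_lt_mul_of_pos_left h9 h1)
      have hws : pw X0 t' ∈ WS f := by
        refine ⟨by rw [rc_pw]; omega, ?_⟩
        rcases hhead with rfl | ⟨x, X', rfl, hx⟩
        · left
          clear hX hmin hne h8 h9 h6 h5 h4 hv h7 h2
          induction t' with
          | zero => rfl
          | succ t' ih => rw [pw_succ, ih]; rfl
        · right
          obtain ⟨s, rfl⟩ : ∃ s, t' = s + 1 := ⟨t' - 1, by omega⟩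
          exact ⟨x, _, by rw [pw_succ]; rfl, hx⟩
      obtain ⟨Ω', hΩ'⟩ := ws_decomp hW' _ _ le_rfl hws
      exact ⟨Ω', trivial, by rw [sub_ext]; exact ⟨_, hΩ', h4 t'⟩⟩
    rcases Nat.lt_or_ge t 2 with hlt | hge
    · have : t = 1 := by omega
      subst this
      rw [Nat.mul_one] at ht
      subst ht
      exfalso
      have h8 := hD.odd v j X0 hj h2 h3
      have h9 := hf v j X0 hj h2 h3
      have h10 := rc_sum (f := f) X0
      rw [h9, add_zero] at h10
      have h11 := (ZMod.natCast_eq_natCast_iff' _ _ 2).mp h10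
      omega
    · have h8 := hmin' 1 le_rfl (by omega)
      have ht2 : t = 2 := by
        by_contra hne
        have h9 := hmin' 2 (by omega) (by omega)
        omega
      subst ht2
      omega

end walk

end Vale.Agent.P329.H157
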