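import Vale.Agent.P329.H157.Good

namespace Vale.Agent.P329.H157

variable {α B B' : Type}

/-- `h` is determined by the length modulo `2 ^ l` and the last `c` letters. -/
def Loc (l c : ℕ) (h : List B → ZMod 2) : Prop :=
  ∀ X Y : List B, X.length % 2 ^ l = Y.length % 2 ^ l → X.take c = Y.take c → h X = h Y

open Classical in
/-- Sum of `F` over the proper prefixes followed by the letter `b`. -/
noncomputable def TT (b : B) (F : List B → ZMod 2) : List B → ZMod 2
  | [] => 0
  | x :: X => TT b F X + if x = b then F X else 0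

namespace Loc

variable {l c l' c' : ℕ} {h h' : List B → ZMod 2}

theorem const (a : ZMod 2) : Loc (B := B) l c fun _ => a := fun _ _ _ _ => rfl

theorem add (hh : Loc l c h) (hh' : Loc l c h') : Loc l c fun X => h X + h' X :=
  fun X Y h1 h2 => by
    change h X + h' X = h Y + h' Y
    rw [hh X Y h1 h2, hh' X Y h1 h2]

theorem mul (hh : Loc l c h) (hh' : Loc l c h') : Loc l c fun X => h X * h' X :=
  fun X Y h1 h2 => by
    change h X * h' X = h Y * h' Y
    rw [hh X Y h1 h2, hh' X Y h1 h2]

theorem mono (hh : Loc l c h) (hl : l ≤ l') (hc : c ≤ c') : Loc l' c' h := by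
  intro X Y h1 h2
  apply hh
  · have hd : 2 ^ l ∣ 2 ^ l' := pow_dvd_pow 2 hl
    rw [← Nat.mod_mod_of_dvd X.length hd, h1, Nat.mod_mod_of_dvd _ hd]
  · have : (X.take c').take c = (Y.take c').take c := by rw [h2]
    rwa [List.take_take, List.take_take, Nat.min_eq_left hc] at this

theorem strip (hh : Loc l c h) (Z : List B) : Loc l c fun X => h (X ++ Z) := by
  intro X Y h1 h2
  apply hh
  · rw [List.length_append, List.length_append, Nat.add_mod, h1, ← Nat.add_mod]
  · rcases Nat.lt_or_ge X.length c with hlt | hge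
    · have h3 : X.take c = X := List.take_of_length_le hlt.le
      have h4 := congrArg List.length h2
      rw [List.length_take, List.length_take] at h4
      have h5 : Y.take c = Y := List.take_of_length_le (by omega)
      rw [h3, h5] at h2
      rw [h2]
    · have h4 := congrArg List.length h2
      rw [List.length_take, List.length_take] at h4
      rw [List.take_append_of_le_length hge, List.take_append_of_le_length (by omega), h2]

end Loc

/-- The class of iterated sums. -/
inductive RG (ν γ : List B → ZMod 2) (l c : ℕ) : ℕ → (List B → ZMod 2) → Prop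
  | nu (s : ℕ) : RG ν γ l c s ν
  | loc (s : ℕ) (h : List B → ZMod 2) : Loc l c h → RG ν γ l c s h
  | add (s : ℕ) (F G : List B → ZMod 2) : RG ν γ l c s F → RG ν γ l c s G →
      RG ν γ l c s fun X => F X + G X
  | mul (s : ℕ) (h F : List B → ZMod 2) : Loc l c h → RG ν γ l c s F →
      RG ν γ l c s fun X => h X * F X
  | T (s : ℕ) (b : B) (F : List B → ZMod 2) : RG ν γ l c s F →
      RG ν γ l c (s + 1) (TT b fun X => γ X * F X)

theorem T_add (b : B) (F G : List B → ZMod 2) (X : List B) :
    TT b (fun X => F X + G X) X = TT b F X + TT b G X := by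
  induction X with
  | nil => simp [TT]
  | cons x X ih =>
    rw [TT, TT, TT, ih]
    by_cases h : x = b
    · rw [if_pos h, if_pos h, if_pos h]; ring
    · rw [if_neg h, if_neg h, if_neg h]; ring

theorem T_zero (b : B) (X : List B) : TT b (fun _ => 0) X = 0 := by
  induction X with
  | nil => rfl
  | cons x X ih => rw [TT, ih]; simp

theorem T_congr {b : B} {F G : List B → ZMod 2} (h : ∀ X, F X = G X) : TT b F = TT b G := by
  rw [show F = G from funext h]

theorem T_strip (b : B) (F : List B → ZMod 2) (X Z : List B) :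
    TT b F (X ++ Z) = TT b (fun Y => F (Y ++ Z)) X + TT b F Z := by
  induction X with
  | nil => simp [TT]
  | cons x X ih =>
    rw [List.cons_append, TT, ih, TT]
    ring

namespace RG

variable {ν γ : List B → ZMod 2} {l c l' c' s s' : ℕ} {F G : List B → ZMod 2}

theorem cast (h : RG ν γ l c s F) (e : ∀ X, F X = G X) : RG ν γ l c s G := by
  rwa [show G = F from (funext e).symm]

theorem zero : RG ν γ l c s fun _ => 0 := loc _ _ (Loc.const 0)

theorem mono (h : RG ν γ l c s F) (hl : l ≤ l') (hc : c ≤ c') : RG ν γ l' c' s F := by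
  induction h with
  | nu s => exact nu s
  | loc s h hh => exact loc s h (hh.mono hl hc)
  | add s F G _ _ ih1 ih2 => exact add s F G ih1 ih2
  | mul s h F hh _ ih => exact mul s h F (hh.mono hl hc) ih
  | T s b F _ ih => exact T s b F ih

theorem mono_s (h : RG ν γ l c s F) : ∀ {s'}, s ≤ s' → RG ν γ l c s' F := by
  induction h with
  | nu s => intro s' _; exact nu s'
  | loc s h hh => intro s' _; exact loc s' h hh
  | add s F G _ _ ih1 ih2 => intro s' hs; exact add s' F G (ih1 hs) (ih2 hs)
  | mul s h F hh _ ih => intro s' hs; exact mul s' h F hh (ih hs)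
  | T s b F _ ih =>
    intro s' hs
    obtain ⟨t, rfl⟩ : ∃ t, s' = t + 1 := ⟨s' - 1, by omega⟩
    exact T t b F (ih (by omega))

theorem sum {ι : Type} (S : Finset ι) (Fs : ι → List B → ZMod 2)
    (h : ∀ i ∈ S, RG ν γ l c s (Fs i)) : RG ν γ l c s fun X => ∑ i ∈ S, Fs i X := by
  classical
  induction S using Finset.induction_on with
  | empty => exact zero.cast fun X => by simp
  | insert a S ha ih =>
    refine (add s _ _ (h a (Finset.mem_insert_self _ _))
      (ih fun i hi => h i (Finset.mem_insert_of_mem hi))).cast fun X => ?_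
    rw [Finset.sum_insert ha]

/-- The restriction `γ` can be absorbed. -/
theorem absorb (h : RG ν γ l c s F) (hγ : Loc l c γ) : RG ν (fun _ => 1) l c s F := by
  induction h with
  | nu s => exact nu s
  | loc s h hh => exact loc s h hh
  | add s F G _ _ ih1 ih2 => exact add s F G ih1 ih2
  | mul s h F hh _ ih => exact mul s h F hh ih
  | T s b F _ ih =>
    refine (T s b _ (mul s γ F hγ ih)).cast fun X => ?_
    exact congrFun (T_congr fun X => one_mul _) X

theorem change {ν' : List B → ZMod 2} (h : RG ν γ l c s F)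
    (hν : ∀ s, RG ν' γ l c s ν) : RG ν' γ l c s F := by
  induction h with
  | nu s => exact hν s
  | loc s h hh => exact loc s h hh
  | add s F G _ _ ih1 ih2 => exact add s F G ih1 ih2
  | mul s h F hh _ ih => exact mul s h F hh ih
  | T s b F _ ih => exact T s b F ih

theorem strip (h : RG ν γ l c s F) (Z : List B) :
    RG (fun X => ν (X ++ Z)) (fun X => γ (X ++ Z)) l c s fun X => F (X ++ Z) := by
  induction h with
  | nu s => exact nu s
  | loc s h hh => exact loc s _ (hh.strip Z)
  | add s F G _ _ ih1 ih2 => exact add s _ _ ih1 ih2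
  | mul s h F hh _ ih => exact mul s _ _ (hh.strip Z) ih
  | T s b F _ ih =>
    refine (add _ _ _ (T s b _ ih) (loc (s + 1) _ (Loc.const (TT b (fun X => γ X * F X) Z)))).cast
      fun X => ?_
    rw [T_strip]

end RG

/-- Additive closure. -/
inductive Sp (P : (List B → ZMod 2) → Prop) : (List B → ZMod 2) → Prop
  | zero : Sp P fun _ => 0
  | of (F : List B → ZMod 2) : P F → Sp P F
  | add (F G : List B → ZMod 2) : Sp P F → Sp P G → Sp P fun X => F X + G X

namespace Sp

variable {P Q : (List B → ZMod 2) → Prop} {F G : List B → ZMod 2}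

theorem cast (h : Sp P F) (e : ∀ X, F X = G X) : Sp P G := by
  rwa [show G = F from (funext e).symm]

theorem mono (h : Sp P F) (hPQ : ∀ F, P F → Q F) : Sp Q F := by
  induction h with
  | zero => exact zero
  | of F hF => exact of F (hPQ F hF)
  | add F G _ _ ih1 ih2 => exact add F G ih1 ih2

theorem mul (h : Sp P F) (k : List B → ZMod 2) (hk : ∀ F, P F → P fun X => k X * F X) :
    Sp P fun X => k X * F X := by
  induction h with
  | zero => exact zero.cast fun X => by simp
  | of F hF => exact of _ (hk F hF)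
  | add F G _ _ ih1 ih2 => exact (add _ _ ih1 ih2).cast fun X => by ring

theorem T (h : Sp P F) (b : B) (γ : List B → ZMod 2)
    (hk : ∀ F, P F → Q (TT b fun X => γ X * F X)) : Sp Q (TT b fun X => γ X * F X) := by
  induction h with
  | zero =>
    refine zero.cast fun X => ?_
    exact ((congrFun (T_congr fun X => by simp) X).trans (T_zero b X)).symm
  | of F hF => exact of _ (hk F hF)
  | add F G _ _ ih1 ih2 =>
    refine (add _ _ ih1 ih2).cast fun X => ?_
    rw [← T_add]
    exact congrFun (T_congr fun X => by ring) X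

theorem sum {ι : Type} (S : Finset ι) (Fs : ι → List B → ZMod 2)
    (h : ∀ i ∈ S, P (Fs i)) : Sp P fun X => ∑ i ∈ S, Fs i X := by
  classical
  induction S using Finset.induction_on with
  | empty => exact zero.cast fun X => by simp
  | insert a S ha ih =>
    refine (add _ _ (of _ (h a (Finset.mem_insert_self _ _)))
      (ih fun i hi => h i (Finset.mem_insert_of_mem hi))).cast fun X => ?_
    rw [Finset.sum_insert ha]

end Sp

/-- Linearity in the innermost function. -/
theorem RG.lin {ν γ : List B → ZMod 2} {l c s : ℕ} {F : List B → ZMod 2} {ι : Type}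
    (S : Finset ι) (νs : ι → List B → ZMod 2) (hν : ∀ X, ν X = ∑ i ∈ S, νs i X)
    (h : RG ν γ l c s F) (hS : S.Nonempty) : Sp (fun F => ∃ i ∈ S, RG (νs i) γ l c s F) F := by
  obtain ⟨i0, hi0⟩ := hS
  induction h with
  | nu s => exact (Sp.sum S νs fun i hi => ⟨i, hi, RG.nu s⟩).cast fun X => (hν X).symm
  | loc s h hh => exact Sp.of _ ⟨i0, hi0, RG.loc s h hh⟩
  | add s F G _ _ ih1 ih2 => exact Sp.add F G ih1 ih2
  | mul s h F hh _ ih =>
    exact ih.mul h fun F ⟨i, hi, hF⟩ => ⟨i, hi, RG.mul s h F hh hF⟩
  | T s b F _ ih =>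
    exact ih.T b γ fun F ⟨i, hi, hF⟩ => ⟨i, hi, RG.T s b F hF⟩

/-- Inner functions. -/
def Inner (l c : ℕ) (ν : List B → ZMod 2) : Prop :=
  (∀ X, ν X = 0) ∨ ∃ b g, Loc l c g ∧ ν = TT b g

/-- Pulling out the innermost sum. -/
theorem RG.pull {l c n : ℕ} {F : List B → ZMod 2}
    (h : RG (fun _ => 0) (fun _ => 1) l c n F) :
    Sp (fun F => ∃ ν, Inner l c ν ∧ RG ν (fun _ => 1) l c (n - 1) F) F ∧
      (n = 0 → Loc l c F) := by
  induction h with
  | nu s => exact ⟨Sp.zero, fun _ => Loc.const 0⟩
  | loc s h hh => exact ⟨Sp.of _ ⟨fun _ => 0, Or.inl fun _ => rfl, RG.loc _ h hh⟩, fun _ => hh⟩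
  | add s F G _ _ ih1 ih2 => exact ⟨Sp.add F G ih1.1 ih2.1, fun h => (ih1.2 h).add (ih2.2 h)⟩
  | mul s h F hh _ ih =>
    refine ⟨ih.1.mul h fun F ⟨ν, hν, hF⟩ => ⟨ν, hν, RG.mul _ h F hh hF⟩, fun h' => hh.mul (ih.2 h')⟩
  | T s b F hF ih =>
    refine ⟨?_, fun h => absurd h (Nat.succ_ne_zero s)⟩
    rcases Nat.eq_zero_or_pos s with rfl | hs
    · apply Sp.of
      refine ⟨TT b fun X => 1 * F X, Or.inr ⟨b, _, ?_, rfl⟩, RG.nu _⟩
      exact (Loc.const 1).mul (ih.2 rfl)
    · refine ih.1.T b (fun _ => 1) fun F ⟨ν, hν, hF⟩ => ⟨ν, hν, ?_⟩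
      obtain ⟨t, rfl⟩ : ∃ t, s = t + 1 := ⟨s - 1, by omega⟩
      exact RG.T t b F hF

/-! ### substitution -/

theorem take_flat {θ : B' → List B} (hpos : ∀ b, 0 < (θ b).length) (c : ℕ) (Ω : List B') :
    (Ω.map θ).flatten.take c = ((Ω.take c).map θ).flatten.take c := by
  induction c generalizing Ω with
  | zero => simp
  | succ c ih =>
    cases Ω with
    | nil => simp
    | cons b Ω =>
      rw [List.take_succ_cons, List.map_cons, List.flatten_cons, List.map_cons, List.flatten_cons]
      have h1 := hpos b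
      rw [List.take_append, List.take_append]
      congr 1
      have h2 : c + 1 - (θ b).length ≤ c := by omega
      have h3 := congrArg (List.take (c + 1 - (θ b).length)) (ih Ω)
      rw [List.take_take, List.take_take, Nat.min_eq_left h2] at h3
      exact h3

theorem Loc.subst {l c : ℕ} {h : List B → ZMod 2} (hh : Loc l c h) {θ : B' → List B}
    (hpos : ∀ b, 0 < (θ b).length) (hlen : ∀ b, 2 ^ l ∣ (θ b).length) (v : List B) :
    Loc 0 c fun Ω : List B' => h (v ++ (Ω.map θ).flatten) := by
  intro Ω Ω' _ h2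
  apply hh
  · have key : ∀ Ω : List B', 2 ^ l ∣ (Ω.map θ).flatten.length := by
      intro Ω
      induction Ω with
      | nil => simp
      | cons b Ω ih =>
        rw [List.map_cons, List.flatten_cons, List.length_append]
        exact (hlen b).add ih
    rw [List.length_append, List.length_append, Nat.add_mod, Nat.mod_eq_zero_of_dvd (key Ω),
      Nat.add_mod v.length, Nat.mod_eq_zero_of_dvd (key Ω')]
  · rw [List.take_append, List.take_append]
    congr 1
    have h3 : (Ω.map θ).flatten.take c = (Ω'.map θ).flatten.take c := by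
      rw [take_flat hpos, take_flat hpos c Ω', h2]
    have h4 := congrArg (List.take (c - v.length)) h3
    rwa [List.take_take, List.take_take, Nat.min_eq_left (Nat.sub_le _ _)] at h4

/-- auxiliary finite sums -/
noncomputable def SS (b : B) (F : List B → ZMod 2) (R : List B) : List B → ZMod 2
  | [] => 0
  | x :: w => by classical exact SS b F R w + if x = b then F (w ++ R) else 0

theorem RG.subst {ν γ : List B → ZMod 2} {l c s : ℕ} {F : List B → ZMod 2}
    (h : RG ν γ l c s F) [Finite B'] {θ : B' → List B}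
    (hpos : ∀ b, 0 < (θ b).length) (hlen : ∀ b, 2 ^ l ∣ (θ b).length)
    {V : Set (List B)} (hVt : ∀ x v, x :: v ∈ V → v ∈ V)
    (hVθ : ∀ b x v, θ b = x :: v → v ∈ V) {ν' γ' : List B' → ZMod 2}
    (hν : ∀ v ∈ V, ∀ s, RG ν' γ' 0 c s fun Ω => ν (v ++ (Ω.map θ).flatten))
    (hγ : ∀ v ∈ V, ∀ Ω : List B', γ (v ++ (Ω.map θ).flatten) = γ' Ω) (hγ' : Loc 0 c γ') :
    ∀ v ∈ V, RG ν' γ' 0 c s fun Ω => F (v ++ (Ω.map θ).flatten) := by
  classical
  have := Fintype.ofFinite B'
  induction h with
  | nu s => exact fun v hv => hν v hv s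
  | loc s h hh => exact fun v _ => RG.loc s _ (hh.subst hpos hlen v)
  | add s F G _ _ ih1 ih2 => exact fun v hv => RG.add s _ _ (ih1 v hv) (ih2 v hv)
  | mul s h F hh _ ih => exact fun v hv => RG.mul s _ _ (hh.subst hpos hlen v) (ih v hv)
  | T s b F _ ih =>
    -- values of T along a word
    have hT : ∀ w : List B, (∀ x v, w = x :: v → v ∈ V) → ∀ Ω : List B',
        TT b (fun X => γ X * F X) (w ++ (Ω.map θ).flatten) =
          TT b (fun X => γ X * F X) (Ω.map θ).flatten +
            γ' Ω * SS b F (Ω.map θ).flatten w := by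
      intro w
      induction w with
      | nil => intro _ Ω; simp [SS]
      | cons x w ihw =>
        intro hw Ω
        have hwV : w ∈ V := hw x w rfl
        rw [List.cons_append, TT, ihw (fun y v hy => hVt y v (hy ▸ hwV)) Ω, hγ w hwV Ω, SS]
        by_cases hx : x = b
        · rw [if_pos hx, if_pos hx]; ring
        · rw [if_neg hx, if_neg hx]; ring
    have hSS : ∀ w : List B, (∀ x v, w = x :: v → v ∈ V) →
        RG ν' γ' 0 c s fun Ω => SS b F (Ω.map θ).flatten w := by
      intro w
      induction w with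
      | nil => intro _; exact RG.zero
      | cons x w ihw =>
        intro hw
        have hwV : w ∈ V := hw x w rfl
        refine (RG.add s _ _ (ihw fun y v hy => hVt y v (hy ▸ hwV))
          (RG.mul s _ _ (Loc.const (if x = b then 1 else 0)) (ih w hwV))).cast fun Ω => ?_
        rw [SS]
        by_cases hx : x = b
        · rw [if_pos hx, if_pos hx]; ring
        · rw [if_neg hx, if_neg hx]; ring
    have hbase : ∀ Ω : List B', TT b (fun X => γ X * F X) (Ω.map θ).flatten =
        ∑ b' : B', TT b' (fun Ω => γ' Ω * SS b F (Ω.map θ).flatten (θ b')) Ω := by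
      intro Ω
      induction Ω with
      | nil => simp [TT]
      | cons b0 Ω ihΩ =>
        rw [List.map_cons, List.flatten_cons, hT (θ b0) (hVθ b0) Ω, ihΩ]
        have : ∀ b' : B', TT b' (fun Ω => γ' Ω * SS b F (Ω.map θ).flatten (θ b')) (b0 :: Ω) =
            TT b' (fun Ω => γ' Ω * SS b F (Ω.map θ).flatten (θ b')) Ω +
              if b0 = b' then γ' Ω * SS b F (Ω.map θ).flatten (θ b') else 0 := fun b' => rfl
        rw [Finset.sum_congr rfl fun b' _ => this b', Finset.sum_add_distrib,
          Finset.sum_ite_eq]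
        simp
    intro v hv
    have h1 : RG ν' γ' 0 c (s + 1) fun Ω : List B' =>
        ∑ b' : B', TT b' (fun Ω => γ' Ω * SS b F (Ω.map θ).flatten (θ b')) Ω :=
      RG.sum Finset.univ _ fun b' _ => RG.T s b' _ (hSS (θ b') (hVθ b'))
    have h2 : RG ν' γ' 0 c (s + 1) fun Ω : List B' =>
        γ' Ω * SS b F (Ω.map θ).flatten v :=
      RG.mul _ _ _ hγ' ((hSS v fun x w hw => hVt x w (hw ▸ hv)).mono_s (Nat.le_succ s))
    refine (RG.add _ _ _ h1 h2).cast fun Ω => ?_
    rw [hT v (fun x w hw => hVt x w (hw ▸ hv)) Ω, hbase]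

end Vale.Agent.P329.H157
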