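import Vale.Agent.P329.H259.Collapse
import Vale.Agent.P329.Bdl.B1

namespace Vale.Agent.P329.H157

open H259 (pw pw_zero pw_succ pw_one pw_add pw_succ' pw_mul pw_length FQ PP Syn Hom)

variable {α : Type}

theorem SH.fq {k : ℕ} {L : Set (List α)} (h : SH k L) : FQ L := by
  obtain ⟨e, -, rfl⟩ := h
  exact H259.FQ.lang e

theorem SH.pp {L : Set (List α)} (h : SH 0 L) (v : List α) : PP v L := by
  obtain ⟨e, he, rfl⟩ := h
  exact PP.starfree e (Nat.le_zero.mp he) v

/-- Star-free = finitely many left quotients and insensitive to large powers. -/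
theorem sf_of [Finite α] {L : Set (List α)} (hF : FQ L) (hP : ∀ v, PP v L) : SH 0 L := by
  obtain ⟨M, iM, fM, f, hf, hk⟩ := hF.monoid
  let N : Submonoid M :=
    { carrier := Set.range f
      mul_mem' := by
        rintro _ _ ⟨u, rfl⟩ ⟨v, rfl⟩
        exact ⟨u ++ v, hf.2 u v⟩
      one_mem' := ⟨[], hf.1⟩ }
  have hA : Aper N := by
    rintro ⟨_, v, rfl⟩
    obtain ⟨n, hn⟩ := hP v
    refine ⟨n, ?_⟩
    apply Subtype.ext
    change f v ^ (n + 1) = f v ^ n
    rw [← hf.pw, ← hf.pw, hk]
    exact fun x y => (hn n le_rfl x y).symm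
  have hprod : ∀ w : List α, ((w.map fun a => (⟨f [a], [a], rfl⟩ : N)).prod : N).1 = f w := by
    intro w
    induction w with
    | nil => exact hf.1.symm
    | cons a w ih =>
      rw [List.map_cons, List.prod_cons, Submonoid.coe_mul, ih]
      exact (hf.2 [a] w).symm
  have hU : L = ⋃ p : N, ⋃ _ : ∃ w ∈ L, f w = p.1,
      {w : List α | (w.map fun a => (⟨f [a], [a], rfl⟩ : N)).prod = p} := by
    ext w
    simp only [Set.mem_iUnion]
    constructor
    · intro hw
      exact ⟨_, ⟨w, hw, (hprod w).symm⟩, rfl⟩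
    · rintro ⟨p, ⟨w', hw', hp⟩, h⟩
      have h' : (w.map fun a => (⟨f [a], [a], rfl⟩ : N)).prod = p := h
      rw [← h', hprod, hk] at hp
      exact hp.mem.mp hw'
  rw [hU]
  exact SH.iUnion fun p => SH.iUnion_prop fun _ => schutz hA _ p

theorem pw_conj (v1 v2 : List α) (n : ℕ) :
    pw (v1 ++ v2) n ++ v1 = v1 ++ pw (v2 ++ v1) n := by
  induction n with
  | zero => simp
  | succ n ih => rw [pw_succ, pw_succ, List.append_assoc, ih]; simp

theorem kst_pw {K : Set (List α)} {u : List α} (hu : u ∈ kst K) (n : ℕ) : pw u n ∈ kst K := by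
  induction n with
  | zero => exact H259.kst_nil K
  | succ n ih => exact H259.kst_append hu ih

/-- Right unitary: `K*` contains the quotients of its elements. -/
def RU (K : Set (List α)) : Prop := ∀ u v, u ∈ kst K → u ++ v ∈ kst K → v ∈ kst K

/-- Pure: `K*` contains the roots of its elements. -/
def Pure (K : Set (List α)) : Prop := ∀ w n, 1 ≤ n → pw w n ∈ kst K → w ∈ kst K

theorem pump {K : Set (List α)} (hK : ∀ v, PP v K) (hU : RU K) (hp : Pure K) (v : List α) :
    ∃ N, 1 ≤ N ∧ ∀ n, N ≤ n → ∀ x y, x ++ pw v n ++ y ∈ kst K →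
      x ++ pw v (n + 1) ++ y ∈ kst K ∧ x ++ pw v (n - 1) ++ y ∈ kst K := by
  obtain ⟨N0, hN0⟩ := hK v
  set C := N0 + 2 with hC
  refine ⟨C * (v.length + 2), by
    have h1 : 1 * 1 ≤ C * (v.length + 2) := Nat.mul_le_mul (by omega) (by omega)
    omega, ?_⟩
  intro n hn x y h
  obtain ⟨L, hL, hLf⟩ := h
  -- chunk j
  have key : ∀ j, j < v.length + 2 → ∃ t, n = C * j + (N0 + 1) + t := by
    intro j hj
    refine ⟨n - (C * j + (N0 + 1)), ?_⟩
    have : C * (j + 1) ≤ C * (v.length + 2) := Nat.mul_le_mul_left C hj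
    have h3 : C * (j + 1) = C * j + C := by ring
    omega
  by_cases hcase : ∃ s t a' p q b', n = s + (N0 + 1) + t ∧ x ++ pw v s = a' ++ p ∧
      pw v t ++ y = q ++ b' ∧ a' ∈ kst K ∧ p ++ pw v (N0 + 1) ++ q ∈ K ∧ b' ∈ kst K
  · obtain ⟨s, t, a', p, q, b', rfl, h1, h2, h3, h4, h5⟩ := hcase
    have hup : p ++ pw v (N0 + 2) ++ q ∈ K := (hN0 (N0 + 1) (by omega) p q).mp h4
    have hdn : p ++ pw v N0 ++ q ∈ K := (hN0 N0 le_rfl p q).mpr h4
    constructor
    · have : x ++ pw v (s + (N0 + 1) + t + 1) ++ y = a' ++ ((p ++ pw v (N0 + 2) ++ q) ++ b') := by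
        have e1 : s + (N0 + 1) + t + 1 = s + ((N0 + 2) + t) := by omega
        rw [e1, pw_add, pw_add]
        calc x ++ (pw v s ++ (pw v (N0 + 2) ++ pw v t)) ++ y
            = (x ++ pw v s) ++ (pw v (N0 + 2) ++ (pw v t ++ y)) := by simp
          _ = _ := by rw [h1, h2]; simp
      rw [this]
      exact H259.kst_append h3 (H259.kst_append (H259.kst_of_mem hup) h5)
    · have : x ++ pw v (s + (N0 + 1) + t - 1) ++ y = a' ++ ((p ++ pw v N0 ++ q) ++ b') := by
        have e1 : s + (N0 + 1) + t - 1 = s + (N0 + t) := by omega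
        rw [e1, pw_add, pw_add]
        calc x ++ (pw v s ++ (pw v N0 ++ pw v t)) ++ y
            = (x ++ pw v s) ++ (pw v N0 ++ (pw v t ++ y)) := by simp
          _ = _ := by rw [h1, h2]; simp
      rw [this]
      exact H259.kst_append h3 (H259.kst_append (H259.kst_of_mem hdn) h5)
  · -- all chunks are cut
    have hcut : ∀ j : Fin (v.length + 2), ∃ s t v1 v2, v = v1 ++ v2 ∧ C * j.1 ≤ s ∧
        s < C * (j.1 + 1) ∧ s + t + 1 = n ∧ x ++ pw v s ++ v1 ∈ kst K ∧
        v2 ++ (pw v t ++ y) ∈ kst K := by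
      intro j
      obtain ⟨t, ht⟩ := key j.1 j.2
      have e1 : L.flatten = (x ++ pw v (C * j.1)) ++ pw v (N0 + 1) ++ (pw v t ++ y) := by
        rw [hLf, ht, pw_add, pw_add]; simp
      rcases H259.kst_cut (pw v (N0 + 1)) (pw v t ++ y) L (x ++ pw v (C * j.1)) hL e1 with
        ⟨m1, m2, hm, h3, h4⟩ | ⟨a', p, q, b', h3, h4, h5, h6, h7⟩
      · obtain ⟨i, i', v1, v2, hv, hm1, hm2, hii⟩ := H259.pw_split v N0 m1 m2 hm
        refine ⟨C * j.1 + i, i' + t, v1, v2, hv, by omega, ?_, by omega, ?_, ?_⟩
        · have : C * (j.1 + 1) = C * j.1 + C := by ring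
          omega
        · rw [hm1] at h3
          rw [pw_add]
          change _ ∈ H259.kst K
          simpa [List.append_assoc] using h3
        · rw [hm2] at h4
          rw [pw_add]
          change _ ∈ H259.kst K
          simpa [List.append_assoc] using h4
      · exact absurd ⟨C * j.1, t, a', p, q, b', ht, h3, h4, h5, h6, h7⟩ hcase
    choose s t v1 v2 hv hs1 hs2 hst hA hB using hcut
    have hmap : ∃ j j' : Fin (v.length + 2), j ≠ j' ∧
        (⟨(v1 j).length, by
          have := congrArg List.length (hv j)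
          rw [List.length_append] at this
          omega⟩ : Fin (v.length + 1)) = ⟨(v1 j').length, by
          have := congrArg List.length (hv j')
          rw [List.length_append] at this
          omega⟩ := by
      apply Fintype.exists_ne_map_eq_of_card_lt
        (f := fun j : Fin (v.length + 2) => (⟨(v1 j).length, by
          have := congrArg List.length (hv j)
          rw [List.length_append] at this
          omega⟩ : Fin (v.length + 1)))
      simp
    obtain ⟨j, j', hne, hjj⟩ := hmap
    have hlen : (v1 j).length = (v1 j').length := by simpa using hjj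
    -- symmetric core
    have core : ∀ j j' : Fin (v.length + 2), j.1 < j'.1 → (v1 j).length = (v1 j').length →
        x ++ pw v (n + 1) ++ y ∈ kst K ∧ x ++ pw v (n - 1) ++ y ∈ kst K := by
      intro j j' hlt hlen
      have hv12 : v1 j = v1 j' ∧ v2 j = v2 j' := by
        have := (hv j).symm.trans (hv j')
        exact List.append_inj this hlen
      have hss : s j < s j' := by
        have h1 := hs2 j
        have h2 := hs1 j'
        have h3 : C * (j.1 + 1) ≤ C * j'.1 := Nat.mul_le_mul_left C hlt
        omega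
      obtain ⟨d, hd⟩ : ∃ d, s j' = s j + (d + 1) := ⟨s j' - s j - 1, by omega⟩
      have hA' := hA j'
      have hBj' := hB j'
      have hAj := hA j
      have htj' := hst j'
      have htj := hst j
      rw [← hv12.1, hd] at hA'
      rw [← hv12.2] at hBj'
      have hvj := hv j
      generalize v1 j = a at *
      generalize v2 j = b at *
      generalize s j = S at *
      generalize t j' = T at *
      have h1 : x ++ pw v (S + (d + 1)) ++ a = (x ++ pw v S ++ a) ++ pw (b ++ a) (d + 1) := by
        rw [pw_add]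
        calc x ++ (pw v S ++ pw v (d + 1)) ++ a = x ++ pw v S ++ (pw v (d + 1) ++ a) := by simp
          _ = x ++ pw v S ++ (a ++ pw (b ++ a) (d + 1)) := by rw [hvj, pw_conj]
          _ = _ := by simp
      rw [h1] at hA'
      have h2 : pw (b ++ a) (d + 1) ∈ kst K := hU _ _ hAj hA'
      have h3 : b ++ a ∈ kst K := hp _ _ (by omega) h2
      constructor
      · have e1 : x ++ pw v (n + 1) ++ y =
            ((x ++ pw v S ++ a) ++ pw (b ++ a) (d + 1)) ++ ((b ++ a) ++ (b ++ (pw v T ++ y))) := by
          have e2 : n + 1 = (S + (d + 1)) + (1 + (1 + T)) := by omega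
          rw [e2, pw_add, pw_add v 1, pw_add v 1, pw_one, ← h1]
          nth_rw 2 [hvj]
          nth_rw 2 [hvj]
          simp
        rw [e1]
        exact H259.kst_append hA' (H259.kst_append h3 hBj')
      · have e1 : x ++ pw v (n - 1) ++ y =
            ((x ++ pw v S ++ a) ++ pw (b ++ a) d) ++ (b ++ (pw v T ++ y)) := by
          have e2 : n - 1 = (S + d) + (1 + T) := by omega
          have h1' : x ++ pw v (S + d) ++ a = (x ++ pw v S ++ a) ++ pw (b ++ a) d := by
            rw [pw_add]
            calc x ++ (pw v S ++ pw v d) ++ a = x ++ pw v S ++ (pw v d ++ a) := by simp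
              _ = x ++ pw v S ++ (a ++ pw (b ++ a) d) := by rw [hvj, pw_conj]
              _ = _ := by simp
          rw [e2, pw_add, pw_add v 1, pw_one, ← h1']
          nth_rw 2 [hvj]
          simp
        rw [e1]
        exact H259.kst_append (H259.kst_append hAj (kst_pw h3 d)) hBj'
    rcases lt_trichotomy j.1 j'.1 with hlt | heq | hlt
    · exact core j j' hlt hlen
    · exact absurd (Fin.ext heq) hne
    · exact core j' j hlt hlen.symm

/-- Lemma P: the star of a pure star-free right unitary language is star-free. -/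
theorem sf_kst [Finite α] {K : Set (List α)} (h0 : SH 0 K) (hU : RU K) (hp : Pure K) :
    SH 0 (kst K) := by
  apply sf_of
  · exact H259.FQ.kst (SH.fq h0)
  · intro v
    obtain ⟨N, hN1, hN⟩ := pump (fun v => SH.pp h0 v) hU hp v
    refine ⟨N, fun n hn x y => ⟨fun h => (hN n hn x y h).1, fun h => ?_⟩⟩
    have := (hN (n + 1) (by omega) x y h).2
    simpa using this

end Vale.Agent.P329.H157
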