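import Vale.Agent.P329.H157.Walk

namespace Vale.Agent.P329.H157

variable {α B : Type}

/-- counting -/
def Ne (e : B → ZMod 2) (X : List B) : ZMod 2 := (X.map e).sum

theorem Ne_append (e : B → ZMod 2) (X Y : List B) : Ne e (X ++ Y) = Ne e X + Ne e Y := by
  rw [Ne, List.map_append, List.sum_append]; rfl

theorem Ne_flatten (e : B → ZMod 2) (K : ℕ) (Ω : List (Bk B K)) :
    Ne e (Ω.map Subtype.val).flatten = (Ω.map fun b => Ne e b.1).sum := by
  induction Ω with
  | nil => rfl
  | cons b Ω ih => rw [List.map_cons, List.flatten_cons, Ne_append, ih]; rfl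

theorem two_eq (x : ZMod 2) : x + x = 0 := by
  rcases zmod2 x with h | h <;> rw [h] <;> decide

/-- the known part of the counting function -/
def be (i : ℕ) (e : B → ZMod 2) (P : List B) : ZMod 2 :=
  ((P.length / 2 ^ i : ℕ) : ZMod 2) + Ne e (P.take (P.length % 2 ^ i))

/-- the walk function -/
def yy (i : ℕ) (e : B → ZMod 2) (P : List B) : ZMod 2 := Ne e P + be i e P

/-- a long run of odd blocks before the present block -/
def bad (i J : ℕ) (e : B → ZMod 2) (P : List B) : Prop :=
  J ≤ P.length / 2 ^ i ∧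
    ∀ k < J, Ne e (((P.drop (P.length % 2 ^ i)).drop (k * 2 ^ i)).take (2 ^ i)) = 1

open Classical in
/-- indicator of `bad` -/
noncomputable def dl (i J : ℕ) (e : B → ZMod 2) (P : List B) : ZMod 2 := if bad i J e P then 1 else 0

open Classical in
/-- indicator of the negation of `bad` -/
noncomputable def gd (i J : ℕ) (e : B → ZMod 2) (P : List B) : ZMod 2 := if bad i J e P then 0 else 1

theorem gd_add (i J : ℕ) (e : B → ZMod 2) (P : List B) : gd i J e P = 1 + dl i J e P := by
  rw [gd, dl]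
  by_cases h : bad i J e P
  · rw [if_pos h, if_pos h]; decide
  · rw [if_neg h, if_neg h]; decide

theorem be_loc (i c : ℕ) (hc : 2 ^ i ≤ c) (e : B → ZMod 2) : Loc (i + 1) c (be i e) := by
  intro P Q h1 h2
  have hd : 2 ^ i ∣ 2 ^ (i + 1) := pow_dvd_pow 2 (Nat.le_succ i)
  have h3 : P.length % 2 ^ i = Q.length % 2 ^ i := by
    rw [← Nat.mod_mod_of_dvd P.length hd, h1, Nat.mod_mod_of_dvd _ hd]
  have h4 : P.length / 2 ^ i % 2 = Q.length / 2 ^ i % 2 := by
    rw [← Nat.mod_mul_right_div_self, ← Nat.mod_mul_right_div_self, ← pow_succ, h1]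
  have h5 : P.take (Q.length % 2 ^ i) = Q.take (Q.length % 2 ^ i) := by
    have hlt : Q.length % 2 ^ i < 2 ^ i := Nat.mod_lt _ (by positivity)
    have := congrArg (List.take (Q.length % 2 ^ i)) h2
    rwa [List.take_take, List.take_take, Nat.min_eq_left (by omega)] at this
  rw [be, be, h3, h5]
  congr 1
  rw [← ZMod.natCast_mod, h4, ZMod.natCast_mod]

theorem bad_iff {i J c : ℕ} (hc : (J + 1) * 2 ^ i ≤ c) {e : B → ZMod 2} {P Q : List B}
    (h1 : P.length % 2 ^ i = Q.length % 2 ^ i) (h2 : P.take c = Q.take c) :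
    bad i J e P ↔ bad i J e Q := by
  have hp : 0 < 2 ^ i := by positivity
  have h3 : J ≤ P.length / 2 ^ i ↔ J ≤ Q.length / 2 ^ i := by
    rw [Nat.le_div_iff_mul_le hp, Nat.le_div_iff_mul_le hp]
    have := congrArg List.length h2
    rw [List.length_take, List.length_take] at this
    have h4 : (J + 1) * 2 ^ i = J * 2 ^ i + 2 ^ i := by ring
    omega
  rw [bad, bad, h3, h1]
  refine and_congr_right fun _ => forall_congr' fun k => forall_congr' fun hk => ?_
  have key : ∀ R : List B, ((R.drop (Q.length % 2 ^ i)).drop (k * 2 ^ i)).take (2 ^ i) =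
      (((R.take c).drop (Q.length % 2 ^ i)).drop (k * 2 ^ i)).take (2 ^ i) := by
    intro R
    have hlt : Q.length % 2 ^ i < 2 ^ i := Nat.mod_lt _ hp
    have h5 : (k + 1) * 2 ^ i ≤ J * 2 ^ i := Nat.mul_le_mul_right _ hk
    have h6 : (J + 1) * 2 ^ i = J * 2 ^ i + 2 ^ i := by ring
    have h7 : (k + 1) * 2 ^ i = k * 2 ^ i + 2 ^ i := by ring
    rw [List.drop_drop, List.drop_drop, List.drop_take, List.take_take, Nat.min_eq_left (by omega)]
  rw [key P, key Q, h2]

theorem dl_loc {i J c : ℕ} (hc : (J + 1) * 2 ^ i ≤ c) (e : B → ZMod 2) : Loc i c (dl i J e) := by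
  intro P Q h1 h2
  classical
  exact if_congr (bad_iff hc h1 h2) rfl rfl

theorem gd_loc {i J c : ℕ} (hc : (J + 1) * 2 ^ i ≤ c) (e : B → ZMod 2) : Loc i c (gd i J e) := by
  intro P Q h1 h2
  classical
  exact if_congr (bad_iff hc h1 h2) rfl rfl

/-! ### in terms of blocks -/

theorem bk_length (K : ℕ) (Ω : List (Bk B K)) :
    (Ω.map Subtype.val).flatten.length = K * Ω.length := flat_length (fun b => b.2) Ω

theorem bk_take (K : ℕ) (Ω : List (Bk B K)) : ∀ (k : ℕ) (hk : k < Ω.length),
    (((Ω.map Subtype.val).flatten).drop (k * K)).take K = (Ω[k]).1 := by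
  induction Ω with
  | nil => intro k hk; simp at hk
  | cons b Ω ih =>
    intro k hk
    cases k with
    | zero =>
      rw [Nat.zero_mul, List.drop_zero, List.map_cons, List.flatten_cons]
      exact List.take_left' b.2
    | succ k =>
      rw [List.map_cons, List.flatten_cons, Nat.succ_mul, Nat.add_comm, ← List.drop_drop,
        List.drop_left' b.2, ih k (by simpa using hk)]
      rfl

section blocks

variable (i J : ℕ) (e : B → ZMod 2) (v : List B) (hv : v.length < 2 ^ i)
  (Ω : List (Bk B (2 ^ i)))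

include hv

theorem len_mod : (v ++ (Ω.map Subtype.val).flatten).length % 2 ^ i = v.length := by
  rw [List.length_append, bk_length, Nat.add_mul_mod_self_left, Nat.mod_eq_of_lt hv]

theorem len_div : (v ++ (Ω.map Subtype.val).flatten).length / 2 ^ i = Ω.length := by
  rw [List.length_append, bk_length, Nat.add_mul_div_left _ _ (by positivity),
    Nat.div_eq_of_lt hv, Nat.zero_add]

theorem yy_blk : yy i e (v ++ (Ω.map Subtype.val).flatten) = yf (fun b : Bk B (2 ^ i) => Ne e b.1) Ω := by
  rw [yy, be, len_mod i v hv, len_div i v hv, Ne_append, List.take_left' rfl, Ne_flatten]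
  have : yf (fun b : Bk B (2 ^ i) => Ne e b.1) Ω =
      (Ω.map fun b => Ne e b.1).sum + (Ω.length : ZMod 2) := by
    induction Ω with
    | nil => simp [yf]
    | cons b Ω ih =>
      rw [yf, List.map_cons, List.sum_cons, List.map_cons, List.sum_cons, List.length_cons]
      rw [yf] at ih
      rw [ih]
      push_cast; ring
  rw [this]
  have h2 := two_eq (Ne e v)
  linear_combination h2

theorem gd_blk : gd i J e (v ++ (Ω.map Subtype.val).flatten) =
    gf (fun b : Bk B (2 ^ i) => Ne e b.1) J Ω := by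
  have : bad i J e (v ++ (Ω.map Subtype.val).flatten) ↔
      J ≤ Ω.length ∧ ∀ x ∈ Ω.take J, Ne e x.1 = 1 := by
    rw [bad, len_mod i v hv, len_div i v hv, List.drop_left' rfl]
    refine and_congr_right fun hJ => ?_
    constructor
    · intro h x hx
      obtain ⟨k, hk, rfl⟩ := List.mem_iff_getElem.mp hx
      rw [List.length_take] at hk
      have h2 := h k (by omega)
      rw [bk_take _ Ω k (by omega)] at h2
      rw [List.getElem_take]
      exact h2
    · intro h k hk
      rw [bk_take _ Ω k (by omega)]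
      apply h
      rw [List.mem_iff_getElem]
      refine ⟨k, by rw [List.length_take]; omega, ?_⟩
      rw [List.getElem_take]
  rw [gd, gf]
  simp only [this]

end blocks

/-- terms which are good at level `i` -/
theorem level_step {s : ℕ} (hP : PS s) [Finite α] [Finite B] {D : B → Set (List α)}
    (hD : Good D) {i J c : ℕ} (hi : 1 ≤ i) (hc : (J + 1) * 2 ^ i ≤ c) {e : B → ZMod 2}
    {F : List B → ZMod 2} (h : RG (yy i e) (gd i J e) i c s F) : Cap D F := by
  have hp : 0 < 2 ^ i := by positivity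
  have hJ : J ≤ c := by nlinarith
  apply Cap.blk hD i
  intro v hv
  have hnull : Null (blk D (Subtype.val : Bk B (2 ^ i) → List B)) fun b => Ne e b.1 :=
    Null.blk hD bk_len bk_surj hi e
  apply walk_step hP (hD.bk i) (f := fun b => Ne e b.1) (J := J) (c := c) hnull hJ
  refine h.subst (θ := (Subtype.val : Bk B (2 ^ i) → List B)) (V := {v | v.length < 2 ^ i})
    ?_ ?_ ?_ ?_ ?_ ?_ (gf_loc hJ) v hv
  · intro b; rw [b.2]; exact hp
  · intro b; rw [b.2]
  · intro x v hxv
    have : v.length + 1 < 2 ^ i := hxv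
    change v.length < 2 ^ i
    omega
  · intro b x v hb
    have := b.2
    rw [hb, List.length_cons] at this
    change v.length < 2 ^ i
    omega
  · intro v hv s
    exact (RG.nu s).cast fun Ω => (yy_blk i e v hv Ω).symm
  · intro v hv Ω
    exact gd_blk i J e v hv Ω

/-! ### at most one bad level -/

theorem blocksum (e : B → ZMod 2) (R : List B) (K q a : ℕ)
    (h : ∀ k < q, Ne e ((R.drop ((a + k) * K)).take K) = 1) :
    Ne e ((R.drop (a * K)).take (q * K)) = (q : ZMod 2) := by
  induction q with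
  | zero => simp [Ne]
  | succ q ih =>
    rw [Nat.succ_mul, List.take_add, Ne_append, ih fun k hk => h k (by omega), List.drop_drop,
      ← Nat.add_mul, h q (by omega)]
    push_cast; ring

theorem pigeon {i i' I : ℕ} (h1 : i < i') (h2 : i' ≤ I) {e : B → ZMod 2} {P : List B}
    (hb : bad i (2 ^ (I + 1 - i)) e P) : ¬ bad i' (2 ^ (I + 1 - i')) e P := by
  intro hb'
  have hK : 0 < 2 ^ i := by positivity
  have hK' : 2 ^ i' = 2 ^ (i' - i) * 2 ^ i := by rw [← pow_add]; congr 1; omega
  have h3 := hb'.2 0 (by positivity)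
  rw [Nat.zero_mul, List.drop_zero] at h3
  have hd : 2 ^ i ∣ 2 ^ i' := pow_dvd_pow 2 h1.le
  set r := P.length % 2 ^ i with hr
  set r' := P.length % 2 ^ i' with hr'
  have h4 : r' % 2 ^ i = r := Nat.mod_mod_of_dvd _ hd
  set a := r' / 2 ^ i with ha
  have h5 : r' = r + a * 2 ^ i := by
    have := Nat.div_add_mod r' (2 ^ i)
    rw [h4, ← ha] at this
    rw [← this]; ring
  have ha2 : a < 2 ^ (i' - i) := by
    rw [ha, Nat.div_lt_iff_lt_mul hK, ← hK']
    exact Nat.mod_lt _ (by positivity)
  have hq : 2 ^ (i' - i) + 2 ^ (i' - i) ≤ 2 ^ (I + 1 - i) := by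
    rw [← two_mul, ← pow_succ']
    exact pow_le_pow_right₀ (by norm_num) (by omega)
  rw [h5, ← List.drop_drop] at h3
  rw [hK'] at h3
  rw [blocksum e (P.drop r) (2 ^ i) (2 ^ (i' - i)) a (by
    intro k hk
    exact hb.2 (a + k) (by omega))] at h3
  have h6 : ((2 ^ (i' - i) : ℕ) : ZMod 2) = 0 := by
    rw [ZMod.natCast_eq_zero_iff]
    exact dvd_pow_self 2 (by omega)
  rw [h6] at h3
  exact absurd h3 (by decide)

/-- abbreviation for the bad indicator -/
noncomputable abbrev dI (I i : ℕ) (e : B → ZMod 2) : List B → ZMod 2 := dl i (2 ^ (I + 1 - i)) e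

/-- abbreviation for the good indicator -/
noncomputable abbrev gI (I i : ℕ) (e : B → ZMod 2) : List B → ZMod 2 := gd i (2 ^ (I + 1 - i)) e

theorem dI_gI {i i' I : ℕ} (h1 : i' < i) (h2 : i ≤ I) (e : B → ZMod 2) (P : List B) :
    gI I i e P * dI I i' e P = dI I i' e P := by
  by_cases h : bad i' (2 ^ (I + 1 - i')) e P
  · have := pigeon h1 h2 h
    rw [gI, gd, if_neg this, one_mul]
  · rw [dI, dl, if_neg h, mul_zero]

/-- The class of functions used in the separation of the levels. -/
inductive XF (e : B → ZMod 2) (I c i : ℕ) : ℕ → ℕ → (List B → ZMod 2) → Prop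
  | nu (n s : ℕ) : XF e I c i n s (Ne e)
  | loc (n s : ℕ) (h : List B → ZMod 2) : Loc i c h → XF e I c i n s h
  | add (n s : ℕ) (F G : List B → ZMod 2) : XF e I c i n s F → XF e I c i n s G →
      XF e I c i n s fun X => F X + G X
  | mul (n s : ℕ) (h F : List B → ZMod 2) : Loc i c h → XF e I c i n s F →
      XF e I c i n s fun X => h X * F X
  | free (n s : ℕ) (b : B) (F : List B → ZMod 2) : XF e I c i n s F →
      XF e I c i (n + 1) (s + 1) (TT b F)
  | del (n s : ℕ) (b : B) (F : List B → ZMod 2) (i' : ℕ) : 1 ≤ i' → i' < i → XF e I c i n s F →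
      XF e I c i n (s + 1) (TT b fun X => dI I i' e X * F X)

namespace XF

variable {e : B → ZMod 2} {I c i n s : ℕ} {F G : List B → ZMod 2}

theorem cast (h : XF e I c i n s F) (e1 : ∀ X, F X = G X) : XF e I c i n s G := by
  rwa [show G = F from (funext e1).symm]

theorem mono (h : XF e I c i n s F) : ∀ {n' s'}, n ≤ n' → s ≤ s' → XF e I c i n' s' F := by
  induction h with
  | nu n s => exact fun _ _ => nu _ _
  | loc n s h hh => exact fun _ _ => loc _ _ h hh
  | add n s F G _ _ ih1 ih2 => exact fun h1 h2 => add _ _ F G (ih1 h1 h2) (ih2 h1 h2)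
  | mul n s h F hh _ ih => exact fun h1 h2 => mul _ _ h F hh (ih h1 h2)
  | free n s b F _ ih =>
    intro n' s' h1 h2
    obtain ⟨m, rfl⟩ : ∃ m, n' = m + 1 := ⟨n' - 1, by omega⟩
    obtain ⟨t, rfl⟩ : ∃ t, s' = t + 1 := ⟨s' - 1, by omega⟩
    exact free m t b F (ih (by omega) (by omega))
  | del n s b F i' hi hi' _ ih =>
    intro n' s' h1 h2
    obtain ⟨t, rfl⟩ : ∃ t, s' = t + 1 := ⟨s' - 1, by omega⟩
    exact del n' t b F i' hi hi' (ih h1 (by omega))

theorem up (h : XF e I c i n s F) : XF e I c (i + 1) n s F := by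
  induction h with
  | nu n s => exact nu _ _
  | loc n s h hh => exact loc _ _ h (hh.mono (Nat.le_succ i) le_rfl)
  | add n s F G _ _ ih1 ih2 => exact add _ _ F G ih1 ih2
  | mul n s h F hh _ ih => exact mul _ _ h F (hh.mono (Nat.le_succ i) le_rfl) ih
  | free n s b F _ ih => exact free _ _ b F ih
  | del n s b F i' hi hi' _ ih => exact del _ _ b F i' hi (by omega) ih

theorem zero : XF e I c i n s fun _ => 0 := loc _ _ _ (Loc.const 0)

theorem dec (hi : 1 ≤ i) (hI : i ≤ I) (hc : 2 ^ (I + 2) ≤ c) (h : XF e I c i n s F) :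
    ∃ G, RG (Ne e) (gI I i e) i c s G ∧ (n = 0 → ∀ X, F X = G X) ∧
      ∀ n', n = n' + 1 → XF e I c (i + 1) n' s fun X => F X + G X := by
  have hloc : ∀ i', i' ≤ i → Loc i c (dI I i' e) := by
    intro i' hi'
    have h1 : (2 ^ (I + 1 - i') + 1) * 2 ^ i' ≤ c := by
      have h2 : (2 ^ (I + 1 - i') + 1) * 2 ^ i' = 2 ^ (I + 1) + 2 ^ i' := by
        rw [Nat.add_mul, Nat.one_mul, ← pow_add]; congr 2; omega
      have h3 : 2 ^ i' ≤ 2 ^ (I + 1) := pow_le_pow_right₀ (by norm_num) (by omega)
      have h4 : 2 ^ (I + 2) = 2 ^ (I + 1) + 2 ^ (I + 1) := by rw [pow_succ]; ring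
      omega
    exact (dl_loc h1 e).mono hi' le_rfl
  induction h with
  | nu n s => exact ⟨Ne e, RG.nu s, fun _ _ => rfl, fun n' _ => zero.cast fun X =>
      (two_eq _).symm⟩
  | loc n s h hh => exact ⟨h, RG.loc s h hh, fun _ _ => rfl, fun n' _ => zero.cast fun X =>
      (two_eq _).symm⟩
  | add n s F G _ _ ih1 ih2 =>
    obtain ⟨F', h1, h2, h3⟩ := ih1
    obtain ⟨G', h4, h5, h6⟩ := ih2
    exact ⟨_, RG.add s F' G' h1 h4, fun hn X => congrArg₂ (· + ·) (h2 hn X) (h5 hn X),
      fun n' hn =>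
      (add _ _ _ _ (h3 n' hn) (h6 n' hn)).cast fun X => by ring⟩
  | mul n s h F hh _ ih =>
    obtain ⟨F', h1, h2, h3⟩ := ih
    exact ⟨_, RG.mul s h F' hh h1, fun hn X => congrArg (h X * ·) (h2 hn X), fun n' hn =>
      (mul _ _ h _ (hh.mono (Nat.le_succ i) le_rfl) (h3 n' hn)).cast fun X => by ring⟩
  | free n s b F hF ih =>
    obtain ⟨F', h1, h2, h3⟩ := ih
    refine ⟨_, RG.T s b F' h1, fun hn => absurd hn (Nat.succ_ne_zero n), fun n' hn => ?_⟩
    have hn' : n = n' := by omega
    subst hn'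
    have hd1 : XF e I c (i + 1) n (s + 1) (TT b fun X => dI I i e X * F X) :=
      del n s b F i hi (Nat.lt_succ_self i) hF.up
    rcases Nat.eq_zero_or_pos n with hn0 | hn0
    · refine hd1.cast fun X => ?_
      rw [← T_add]
      refine congrFun (T_congr fun X => ?_) X
      rw [← h2 hn0 X, gI, gd_add]
      have := two_eq (F X)
      linear_combination - this
    · obtain ⟨m, rfl⟩ : ∃ m, n = m + 1 := ⟨n - 1, by omega⟩
      have h4 := h3 m rfl
      have h5 := (free m s b _ h4)
      have h6 := (del m s b _ i hi (Nat.lt_succ_self i) h4).mono (Nat.le_succ m) le_rfl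
      refine (add _ _ _ _ hd1 (add _ _ _ _ h5 h6)).cast fun X => ?_
      rw [← T_add, ← T_add, ← T_add]
      refine congrFun (T_congr fun X => ?_) X
      rw [gI, gd_add]
      have h7 := two_eq (dI I i e X * F X)
      linear_combination h7
  | del n s b F i' hi1 hi2 _ ih =>
    obtain ⟨F', h1, h2, h3⟩ := ih
    refine ⟨_, RG.T s b _ (RG.mul s _ F' (hloc i' hi2.le) h1), fun hn X => ?_, fun n' hn => ?_⟩
    · refine congrFun (T_congr fun X => ?_) X
      rw [h2 hn X, ← mul_assoc, dI_gI hi2 hI]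
    · refine (del n' s b _ i' hi1 (by omega) (h3 n' hn)).cast fun X => ?_
      rw [← T_add]
      refine congrFun (T_congr fun X => ?_) X
      rw [← mul_assoc, dI_gI hi2 hI]
      ring

end XF

theorem xf_cap {s : ℕ} (hP : PS s) [Finite α] [Finite B] {D : B → Set (List α)}
    (hD : Good D) {I c : ℕ} (hc : 2 ^ (I + 2) ≤ c) {e : B → ZMod 2} : ∀ (n i : ℕ)
    (F : List B → ZMod 2), 1 ≤ i → i + n ≤ I → XF e I c i n s F → Cap D F := by
  intro n
  induction n with
  | zero =>
    intro i F hi hI h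
    obtain ⟨G, h1, h2, -⟩ := h.dec hi (by omega) hc
    refine Cap.cast ?_ fun X => (h2 rfl X).symm
    exact rg_cap hi (by omega) h1
  | succ n ih =>
    intro i F hi hI h
    obtain ⟨G, h1, -, h2⟩ := h.dec hi (by omega) hc
    refine Cap.cast (Cap.add hD (rg_cap hi (by omega) h1) (ih (i + 1) _ (by omega) (by omega)
      (h2 n rfl))) fun X => ?_
    have := two_eq (G X)
    linear_combination this
where
  rg_cap {i : ℕ} (hi : 1 ≤ i) (hI : i ≤ I) {G : List B → ZMod 2}
      (h : RG (Ne e) (gI I i e) i c s G) : Cap D G := by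
    have h0 : (2 ^ (I + 1 - i) + 1) * 2 ^ i ≤ c := by
      have h2 : (2 ^ (I + 1 - i) + 1) * 2 ^ i = 2 ^ (I + 1) + 2 ^ i := by
        rw [Nat.add_mul, Nat.one_mul, ← pow_add]; congr 2; omega
      have h3 : 2 ^ i ≤ 2 ^ (I + 1) := pow_le_pow_right₀ (by norm_num) (by omega)
      have h4 : 2 ^ (I + 2) = 2 ^ (I + 1) + 2 ^ (I + 1) := by rw [pow_succ]; ring
      omega
    have h5 := h.lin (Finset.univ : Finset Bool) (fun t => if t then yy i e else be i e)
      (fun X => by
        rw [Fintype.sum_bool]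
        simp only [if_true, Bool.false_eq_true, if_false]
        rw [yy]
        have := two_eq (be i e X)
        linear_combination - this) ⟨true, Finset.mem_univ _⟩
    refine Cap.sp hD h5 ?_
    rintro F ⟨t, -, hF⟩
    rcases t with _ | _
    · simp only [Bool.false_eq_true, if_false] at hF
      have h6 := (hF.absorb (gd_loc h0 e)).mono (Nat.le_succ i) (le_refl c)
      have h7 : 2 ^ i ≤ c := by nlinarith [Nat.zero_le (2 ^ (I + 1 - i) * 2 ^ i)]
      have h8 := h6.change (ν' := fun _ => 0) fun s => RG.loc s _ (be_loc i c h7 e)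
      exact hP B (i + 1) c F h8 α D hD
    · simp only [if_true] at hF
      exact level_step hP hD hi h0 hF

end Vale.Agent.P329.H157
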