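import Vale.Agent.P329.H157.Level

namespace Vale.Agent.P329.H157

open H259 (pw pw_zero pw_succ pw_one pw_add pw_succ' pw_mul pw_length)

variable {α B : Type}

theorem rg_xf {e : B → ZMod 2} {c I c' s : ℕ} (hc : c ≤ c') {F : List B → ZMod 2}
    (h : RG (Ne e) (fun _ => 1) 0 c s F) : XF e I c' 1 s s F := by
  induction h with
  | nu s => exact XF.nu s s
  | loc s h hh => exact XF.loc s s h (hh.mono (Nat.zero_le 1) hc)
  | add s F G _ _ ih1 ih2 => exact XF.add s s F G ih1 ih2
  | mul s h F hh _ ih => exact XF.mul s s h F (hh.mono (Nat.zero_le 1) hc) ih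
  | T s b F _ ih =>
    exact (XF.free s s b F ih).cast fun X => congrFun (T_congr fun X => (one_mul _).symm) X

theorem plain_cap {s : ℕ} (hP : PS s) [Finite α] [Finite B] {D : B → Set (List α)}
    (hD : Good D) {e : B → ZMod 2} {c : ℕ} {F : List B → ZMod 2}
    (h : RG (Ne e) (fun _ => 1) 0 c s F) : Cap D F :=
  xf_cap hP hD (I := s + 1) (c := max c (2 ^ (s + 1 + 2))) (le_max_right _ _) s 1 F le_rfl
    (by omega) (rg_xf (le_max_left _ _) h)

open Classical in
theorem T_split (b : B) (g : List B → ZMod 2) (K : ℕ) (hK : 0 < K) (X : List B) :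
    TT b g X = ∑ ρ ∈ Finset.range K,
      TT b (fun P => if (P.length + 1) % K = ρ then g P else 0) X := by
  induction X with
  | nil => simp [TT]
  | cons x X ih =>
    simp only [TT]
    rw [Finset.sum_add_distrib, ← ih]
    congr 1
    by_cases hx : x = b
    · simp only [if_pos hx]
      rw [Finset.sum_ite_eq]
      rw [if_pos (Finset.mem_range.mpr (Nat.mod_lt _ hK))]
    · simp only [if_neg hx]
      simp

theorem mod_shift {K ρ n : ℕ} (hρ : ρ < K) : (n + ρ + 1) % K = ρ ↔ K ∣ n + 1 := by
  constructor
  · intro h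
    have h1 : n + ρ + 1 ≡ 0 + ρ [MOD K] := by
      rw [Nat.ModEq, h, Nat.zero_add, Nat.mod_eq_of_lt hρ]
    have h2 : (n + 1) + ρ ≡ 0 + ρ [MOD K] := by
      rwa [show n + 1 + ρ = n + ρ + 1 by ring]
    exact (Nat.modEq_zero_iff_dvd).mp (Nat.ModEq.add_right_cancel' ρ h2)
  · rintro ⟨q, hq⟩
    rw [show n + ρ + 1 = ρ + K * q by rw [← hq]; ring, Nat.add_mul_mod_self_left,
      Nat.mod_eq_of_lt hρ]

open Classical in
/-- marks at the ends of the blocks -/
theorem end_cap {s : ℕ} (hP : PS s) [Finite α] [Finite B] {D : B → Set (List α)}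
    (hD : Good D) {b : B} {g : List B → ZMod 2} {l c m : ℕ} (hg : Loc l c g) (hl : l ≤ m)
    (hc : c + 1 ≤ 2 ^ m) {F : List B → ZMod 2}
    (h : RG (TT b fun P => if 2 ^ m ∣ P.length + 1 then g P else 0) (fun _ => 1) l c s F) :
    Cap D F := by
  have hp : 0 < 2 ^ m := by positivity
  have hd : 2 ^ l ∣ 2 ^ m := pow_dvd_pow 2 hl
  apply Cap.blk hD m
  intro v hv
  set g0 : List B → ZMod 2 := fun P => if 2 ^ m ∣ P.length + 1 then g P else 0 with hg0
  let e : Bk B (2 ^ m) → ZMod 2 := fun Z => match Z.1 with
    | [] => 0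
    | x :: z => if x = b then g z else 0
  have h1 : ∀ v : List B, v.length < 2 ^ m → ∀ Ω : List (Bk B (2 ^ m)),
      TT b g0 (v ++ (Ω.map Subtype.val).flatten) = TT b g0 (Ω.map Subtype.val).flatten := by
    intro v
    induction v with
    | nil => intro _ Ω; rfl
    | cons x v ih =>
      intro hv Ω
      rw [List.length_cons] at hv
      rw [List.cons_append, TT, ih (by omega)]
      have : g0 (v ++ (Ω.map Subtype.val).flatten) = 0 := by
        rw [hg0]
        refine if_neg ?_
        rw [List.length_append, bk_length, show v.length + 2 ^ m * Ω.length + 1 =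
          (v.length + 1) + 2 ^ m * Ω.length by ring]
        rw [Nat.dvd_add_left (Dvd.intro _ rfl)]
        exact Nat.not_dvd_of_pos_of_lt (by omega) hv
      rw [this]; simp
  have h2 : ∀ Ω : List (Bk B (2 ^ m)), TT b g0 (Ω.map Subtype.val).flatten = Ne e Ω := by
    intro Ω
    induction Ω with
    | nil => rfl
    | cons Z Ω ih =>
      rw [List.map_cons, List.flatten_cons]
      obtain ⟨Z, hZ⟩ := Z
      cases Z with
      | nil =>
        exfalso
        rw [List.length_nil] at hZ
        omega
      | cons x z =>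
        rw [List.length_cons] at hZ
        change TT b g0 (x :: (z ++ (Ω.map Subtype.val).flatten)) = _
        rw [TT, h1 z (by omega), ih]
        have h3 : g0 (z ++ (Ω.map Subtype.val).flatten) = g z := by
          rw [hg0]
          have h4 : 2 ^ m ∣ (z ++ (Ω.map Subtype.val).flatten).length + 1 := by
            rw [List.length_append, bk_length, show z.length + 2 ^ m * Ω.length + 1 =
              (z.length + 1) + 2 ^ m * Ω.length by ring, hZ]
            exact (Nat.dvd_refl _).add (Dvd.intro _ rfl)
          refine (if_pos h4).trans (hg _ _ ?_ ?_)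
          · rw [List.length_append, bk_length, Nat.add_mod, Nat.mod_eq_zero_of_dvd
              (hd.trans (Dvd.intro _ rfl)), Nat.add_zero, Nat.mod_mod]
          · exact List.take_append_of_le_length (by omega)
        rw [h3]
        have h5 : Ne e (⟨x :: z, hZ⟩ :: Ω) = (if x = b then g z else 0) + Ne e Ω := rfl
        rw [h5, add_comm]
  apply plain_cap hP (hD.bk m) (e := e) (c := c)
  refine h.subst (θ := (Subtype.val : Bk B (2 ^ m) → List B)) (V := {v | v.length < 2 ^ m})
    ?_ ?_ ?_ ?_ ?_ ?_ (Loc.const 1) v hv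
  · intro b; rw [b.2]; exact hp
  · intro b; rw [b.2]; exact hd
  · intro x v hxv
    have : v.length + 1 < 2 ^ m := hxv
    change v.length < 2 ^ m
    omega
  · intro b x v hb
    have := b.2
    rw [hb, List.length_cons] at this
    change v.length < 2 ^ m
    omega
  · intro v hv s
    exact (RG.nu s).cast fun Ω => by rw [h1 v hv, h2]
  · intro v _ Ω; rfl

theorem inner_cap {s : ℕ} (hP : PS s) [Finite α] [Finite B] {D : B → Set (List α)}
    (hD : Good D) {b : B} {g : List B → ZMod 2} {l c : ℕ} (hg : Loc l c g)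
    {F : List B → ZMod 2} (h : RG (TT b g) (fun _ => 1) l c s F) : Cap D F := by
  classical
  have hc : c + 1 ≤ 2 ^ (l + c) := by
    calc c + 1 ≤ 2 ^ c := Nat.succ_le_of_lt Nat.lt_two_pow_self
      _ ≤ 2 ^ (l + c) := pow_le_pow_right₀ (by norm_num) (by omega)
  have hp : 0 < 2 ^ (l + c) := by positivity
  have h1 := h.lin (Finset.range (2 ^ (l + c))) _ (T_split b g (2 ^ (l + c)) hp)
    ⟨0, Finset.mem_range.mpr hp⟩
  refine Cap.sp hD h1 ?_
  rintro F ⟨ρ, hρ, hF⟩
  rw [Finset.mem_range] at hρ
  apply Cap.strip hD ρ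
  intro Z hZ
  apply end_cap hP hD (b := b) (hg.strip Z) (Nat.le_add_right l c) hc
  refine (hF.strip Z).change fun s => ?_
  refine (RG.add s _ _ (RG.nu s) (RG.loc s _ (Loc.const
    (TT b (fun P => if (P.length + 1) % 2 ^ (l + c) = ρ then g P else 0) Z)))).cast fun X => ?_
  rw [T_strip]
  congr 1
  refine congrFun (T_congr fun Y => ?_) X
  have h2 : (Y ++ Z).length + 1 = Y.length + ρ + 1 := by rw [List.length_append, hZ]
  rw [h2]
  exact if_congr (mod_shift hρ).symm rfl rfl

theorem ps_all : ∀ s, PS s := by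
  intro s
  induction s with
  | zero =>
    intro B _ l c F h α _ D hD
    exact Cap.loc hD (h.pull.2 rfl)
  | succ s ih =>
    intro B _ l c F h α _ D hD
    refine Cap.sp hD h.pull.1 ?_
    rintro F ⟨ν, hν, hF⟩
    rw [Nat.add_sub_cancel] at hF
    rcases hν with h0 | ⟨b, g, hg, rfl⟩
    · have h1 := hF.change (ν' := fun _ => 0) fun s => RG.zero.cast fun X => (h0 X).symm
      exact ih B l c F h1 α D hD
    · exact inner_cap ih hD hg hF

/-! ### letters -/

theorem sub_letters (X : List α) : sub (fun a : α => ({[a]} : Set (List α))) X = {X.reverse} := by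
  induction X with
  | nil => rfl
  | cons a X ih =>
    rw [sub, ih]
    ext u
    constructor
    · rintro ⟨p, hp, q, hq, rfl⟩
      rw [Set.mem_singleton_iff] at hp hq
      subst hp hq
      simp
    · intro hu
      rw [Set.mem_singleton_iff] at hu
      exact ⟨_, rfl, _, rfl, by rw [hu]; simp⟩

theorem good_letters : Good (fun a : α => ({[a]} : Set (List α))) where
  ne b hb := by
    rw [Set.mem_singleton_iff] at hb
    cases hb
  pre b b' d d' t t' hd hd' he := by
    rw [Set.mem_singleton_iff] at hd hd'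
    subst hd hd'
    rw [List.cons_append, List.cons_append, List.cons.injEq] at he
    exact ⟨he.1, by rw [he.1]⟩
  sf b := SH.single b
  odd v j X hj _ hmin := by
    exfalso
    apply hmin 1 le_rfl (by omega)
    exact ⟨v.reverse, trivial, by rw [sub_letters, List.reverse_reverse, pw_one]; rfl⟩

/-- Functions with nested sums of the letters. -/
theorem letters_sh [Finite α] {l c s : ℕ} {F : List α → ZMod 2}
    (h : RG (fun _ => 0) (fun _ => 1) l c s F) : SH 1 {w : List α | F w.reverse = 1} := by
  have h1 := ps_all s α l c F h α _ good_letters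
  refine Eq.mp (congrArg (SH 1) ?_) h1
  ext w
  constructor
  · rintro ⟨X, hX, hw⟩
    rw [sub_letters, Set.mem_singleton_iff] at hw
    subst hw
    change F X.reverse.reverse = 1
    rw [List.reverse_reverse]
    exact hX
  · intro hw
    exact ⟨w.reverse, hw, by rw [sub_letters, List.reverse_reverse]; rfl⟩

end Vale.Agent.P329.H157
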