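import Mathlib.Algebra.Group.Defs

namespace Vale.Agent.P329

/-- Multiplication of the Rees matrix semigroup with zero over `G` with sandwich matrix `P`.
The element `none` is the zero; an entry `none` of `P` is a zero entry of the matrix. -/
def reesMul {G I Λ : Type} [Mul G] (P : Λ → I → Option G) :
    Option (I × G × Λ) → Option (I × G × Λ) → Option (I × G × Λ)
  | some (i, g, l), some (j, h, m) => (P l j).map fun p => (i, g * p * h, m)
  | _, _ => none

end Vale.Agent.P329
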