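import Vale.Agent.P329.H157.Ctx
import Vale.Agent.P329.H157.ReesDef
import Mathlib.Data.List.Chain

namespace Vale.Agent.P329.H157

section lang

variable {α : Type} [Finite α]

theorem sh_head (a : α) : SH 0 {w : List α | w.head? = some a} := by
  have h1 : SH 0 (cat ({[a]} : Set (List α)) Set.univ) := (SH.single a).cat SH.univ
  refine Eq.mp (congrArg (SH 0) ?_) h1
  ext w
  constructor
  · rintro ⟨u, hu, v, _, rfl⟩
    rw [Set.mem_singleton_iff] at hu
    subst hu
    rfl
  · intro hw
    cases w with
    | nil => cases hw
    | cons x w =>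
      have : x = a := Option.some.inj hw
      exact ⟨[a], rfl, w, trivial, by rw [this]; rfl⟩

theorem sh_last (a : α) : SH 0 {w : List α | w.getLast? = some a} := by
  have h1 : SH 0 (cat Set.univ ({[a]} : Set (List α))) := SH.univ.cat (SH.single a)
  refine Eq.mp (congrArg (SH 0) ?_) h1
  ext w
  constructor
  · rintro ⟨u, _, v, hv, rfl⟩
    rw [Set.mem_singleton_iff] at hv
    subst hv
    simp
  · intro hw
    obtain ⟨ys, rfl⟩ := List.getLast?_eq_some_iff.mp hw
    exact ⟨ys, trivial, [a], rfl, rfl⟩

theorem chain_iff {R : α → α → Prop} (w : List α) :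
    w.IsChain R ↔ ∀ u v x y, w = u ++ x :: y :: v → R x y := by
  constructor
  · rintro h u v x y rfl
    have h1 := (List.isChain_append.mp h).2.1
    rw [List.isChain_cons_cons] at h1
    exact h1.1
  · intro h
    induction w with
    | nil => exact List.isChain_nil
    | cons a w ih =>
      cases w with
      | nil => exact List.isChain_singleton a
      | cons b w =>
        rw [List.isChain_cons_cons]
        refine ⟨h [] w a b rfl, ih fun u v x y he => h (a :: u) v x y ?_⟩
        rw [he]; rfl

theorem sh_chain (R : α → α → Prop) : SH 0 {w : List α | w.IsChain R} := by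
  have h1 : SH 0 (⋃ x : α, ⋃ y : α, ⋃ _ : ¬ R x y,
      cat (cat Set.univ ({[x]} : Set (List α))) (cat ({[y]} : Set (List α)) Set.univ)) :=
    SH.iUnion fun x => SH.iUnion fun y => SH.iUnion_prop fun _ =>
      (SH.univ.cat (SH.single x)).cat ((SH.single y).cat SH.univ)
  refine Eq.mp (congrArg (SH 0) ?_) h1.compl
  ext w
  rw [Set.mem_compl_iff, Set.mem_ofPred_eq, chain_iff]
  simp only [Set.mem_iUnion]
  constructor
  · intro h u v x y he
    by_contra hR
    apply h
    refine ⟨x, y, hR, u ++ [x], ⟨u, trivial, [x], rfl, rfl⟩, [y] ++ v, ⟨[y], rfl, v, trivial, rfl⟩,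
      ?_⟩
    rw [he]; simp
  · rintro h ⟨x, y, hR, _, ⟨u, _, s, hs, rfl⟩, _, ⟨t, ht, v, _, rfl⟩, rfl⟩
    rw [Set.mem_singleton_iff] at hs ht
    subst hs ht
    exact hR (h u v x y (by simp))

end lang

section rees

variable {α G I Λ : Type} [Group G] (P : Λ → I → Option G) (f : α → Option (I × G × Λ))

/-- the group entry of a letter -/
def gval (x : α) : G :=
  match f x with
  | some (_, g, _) => g
  | none => 1

/-- the matrix entry between two letters -/
def pval (x y : α) : G :=
  match f x, f y with
  | some (_, _, l), some (j, _, _) => (P l j).getD 1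
  | _, _ => 1

/-- the contribution of a letter in its context -/
def rchi (X : List α) (b : α) : G :=
  match X.head? with
  | none => gval f b
  | some x => pval P f x b * gval f b

theorem rees_iff (a : α) (i : I) (l : Λ) : ∀ (u : List α) (g : G),
    (u.map f).foldl (reesMul P) (f a) = some (i, g, l) ↔
      (∃ g0 l0, f a = some (i, g0, l0)) ∧
      (∃ b j h, (a :: u).getLast? = some b ∧ f b = some (j, h, l)) ∧
      (a :: u).IsChain (fun x y => reesMul P (f x) (f y) ≠ none) ∧
      hp (rchi P f) (a :: u).reverse = g := by
  intro u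
  induction u using List.reverseRecOn generalizing l with
  | nil =>
    intro g
    constructor
    · intro h
      have h' : f a = some (i, g, l) := h
      refine ⟨⟨g, l, h'⟩, ⟨a, i, g, rfl, h'⟩, List.isChain_singleton a, ?_⟩
      simp [hp, rchi, gval, h']
    · rintro ⟨⟨g0, l0, h1⟩, ⟨b, j, h, h2, h3⟩, -, h4⟩
      have h5 : a = b := Option.some.inj h2
      subst h5
      rw [h1] at h3
      cases h3
      have h6 : gval f a = g := by simpa [hp, rchi] using h4
      have h7 : gval f a = g0 := by simp [gval, h1]
      change f a = some (i, g, l)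
      rw [h1, ← h6, h7]
  | append_singleton u b ih =>
    intro g
    obtain ⟨c, hc⟩ : ∃ c, (a :: u).getLast? = some c :=
      ⟨_, List.getLast?_eq_some_getLast (List.cons_ne_nil a u)⟩
    obtain ⟨ys, hys⟩ := List.getLast?_eq_some_iff.mp hc
    have hrev : (a :: (u ++ [b])).reverse = b :: (a :: u).reverse := by simp
    have hhead : (a :: u).reverse.head? = some c := by rw [hys]; simp
    have hhp : hp (rchi P f) (a :: (u ++ [b])).reverse =
        hp (rchi P f) (a :: u).reverse * (pval P f c b * gval f b) := by
      rw [hrev, hp, rchi, hhead]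
    have hchain : (a :: (u ++ [b])).IsChain (fun x y => reesMul P (f x) (f y) ≠ none) ↔
        (a :: u).IsChain (fun x y => reesMul P (f x) (f y) ≠ none) ∧
          reesMul P (f c) (f b) ≠ none := by
      rw [← List.cons_append, List.isChain_append]
      constructor
      · rintro ⟨h1, _, h3⟩
        exact ⟨h1, h3 c (by rw [hc]; rfl) b rfl⟩
      · rintro ⟨h1, h2⟩
        refine ⟨h1, List.isChain_singleton b, ?_⟩
        intro x hx y hy
        rw [hc] at hx
        have h3 : c = x := Option.some.inj hx
        have h4 : b = y := Option.some.inj hy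
        rw [← h3, ← h4]; exact h2
    have hlast : (a :: (u ++ [b])).getLast? = some b :=
      List.getLast?_eq_some_iff.mpr ⟨a :: u, by simp⟩
    rw [List.map_append, List.foldl_append, hhp, hchain, hlast]
    change reesMul P ((u.map f).foldl (reesMul P) (f a)) (f b) = some (i, g, l) ↔ _
    constructor
    · intro h
      cases hv : (u.map f).foldl (reesMul P) (f a) with
      | none => rw [hv] at h; cases h
      | some t =>
        obtain ⟨i', g', l'⟩ := t
        rw [hv] at h
        cases hb : f b with
        | none => rw [hb] at h; cases h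
        | some t =>
          obtain ⟨j, k, m⟩ := t
          rw [hb] at h
          change (P l' j).map (fun p => (i', g' * p * k, m)) = some (i, g, l) at h
          cases hp' : P l' j with
          | none => rw [hp'] at h; cases h
          | some p =>
            rw [hp'] at h
            cases h
            obtain ⟨h1, ⟨c', j', k', h2, h3⟩, h4, h5⟩ := (ih l' g').mp hv
            rw [hc] at h2
            have h6 : c = c' := Option.some.inj h2
            subst h6
            refine ⟨h1, ⟨b, j, k, rfl, hb⟩, ⟨h4, ?_⟩, ?_⟩
            · rw [h3]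
              change (P l' j).map (fun p => (j', k' * p * k, l)) ≠ none
              rw [hp']
              intro h; cases h
            · rw [h5]
              have h7 : pval P f c b = p := by simp [pval, h3, hb, hp']
              have h8 : gval f b = k := by simp [gval, hb]
              rw [h7, h8, mul_assoc]
    · rintro ⟨h1, ⟨b', j, k, h2, h3⟩, ⟨h4, h5⟩, h6⟩
      have h7 : b = b' := Option.some.inj h2
      subst h7
      cases hcv : f c with
      | none => rw [hcv] at h5; exact absurd rfl h5
      | some t =>
        obtain ⟨j', k', l'⟩ := t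
        rw [hcv, h3] at h5
        change (P l' j).map (fun p => (j', k' * p * k, l)) ≠ none at h5
        cases hp' : P l' j with
        | none => rw [hp'] at h5; exact absurd rfl h5
        | some p =>
          have h8 := (ih l' (hp (rchi P f) (a :: u).reverse)).mpr
            ⟨h1, ⟨c, j', k', hc, hcv⟩, h4, rfl⟩
          rw [h8, h3]
          change (P l' j).map (fun p => (i, _ * p * k, l)) = _
          rw [hp']
          have h9 : pval P f c b = p := by simp [pval, hcv, h3, hp']
          have h10 : gval f b = k := by simp [gval, h3]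
          rw [h9, h10] at h6
          rw [← h6]
          simp [mul_assoc]

/-- Languages recognised by Rees matrix semigroups with zero over `2`-groups. -/
theorem rees_sh [Finite α] [Finite G] [Finite I] [Finite Λ] (hG : IsPGroup 2 G)
    (S : Set (Option (I × G × Λ))) :
    SH 1 {w : List α | ∃ a u, w = a :: u ∧ (u.map f).foldl (reesMul P) (f a) ∈ S} := by
  have hχ : ∀ (X Y : List α) (b : α), X.length % 2 ^ 0 = Y.length % 2 ^ 0 →
      X.take 1 = Y.take 1 → rchi P f X b = rchi P f Y b := by
    intro X Y b _ h
    have : X.head? = Y.head? := by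
      cases X <;> cases Y <;> simp_all
    rw [rchi, rchi, this]
  have h0 : ∀ t : I × G × Λ, SH 1 {w : List α | ∃ a u, w = a :: u ∧
      (u.map f).foldl (reesMul P) (f a) = some t} := by
    rintro ⟨i, g, l⟩
    have h1 : SH 1 (⋃ a : α, ⋃ b : α, ⋃ _ : (∃ g0 l0, f a = some (i, g0, l0)) ∧
        ∃ j h, f b = some (j, h, l), (({w : List α | w.head? = some a} ∩
          {w : List α | w.getLast? = some b}) ∩
          {w : List α | w.IsChain (fun x y => reesMul P (f x) (f y) ≠ none)}) ∩
          subL (fun a : α => ({[a]} : Set (List α))) {X | hp (rchi P f) X ∈ ({g} : Set G)}) :=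
      SH.iUnion fun a => SH.iUnion fun b => SH.iUnion_prop fun _ =>
        (((sh_head a).of_zero.inter (sh_last b).of_zero).inter (sh_chain _).of_zero).inter
          (ctx_cap hG good_letters hχ {g})
    refine Eq.mp (congrArg (SH 1) ?_) h1
    ext w
    simp only [Set.mem_iUnion]
    constructor
    · rintro ⟨a, b, ⟨h2, j, h, h3⟩, ⟨⟨h4, h5⟩, h6⟩, X, hX, hw⟩
      rw [sub_letters, Set.mem_singleton_iff] at hw
      subst hw
      cases he : X.reverse with
      | nil => rw [he] at h4; cases h4
      | cons a' u =>
        rw [he] at h4 h5 h6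
        have h7 : a' = a := Option.some.inj h4
        subst h7
        refine ⟨a', u, rfl, (rees_iff P f a' i l u g).mpr ⟨h2, ⟨b, j, h, h5, h3⟩, h6, ?_⟩⟩
        rw [← he, List.reverse_reverse]
        exact hX
    · rintro ⟨a, u, rfl, h2⟩
      obtain ⟨h3, ⟨b, j, h, h4, h5⟩, h6, h7⟩ := (rees_iff P f a i l u g).mp h2
      refine ⟨a, b, ⟨h3, j, h, h5⟩, ⟨⟨rfl, h4⟩, h6⟩, (a :: u).reverse, h7, ?_⟩
      rw [sub_letters, List.reverse_reverse]
      rfl
  have h1 : SH 1 (⋃ t : I × G × Λ, ⋃ _ : some t ∈ S, {w : List α | ∃ a u, w = a :: u ∧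
      (u.map f).foldl (reesMul P) (f a) = some t}) :=
    SH.iUnion fun t => SH.iUnion_prop fun _ => h0 t
  have h2 : SH 1 (⋃ _ : none ∈ S, ((⋃ t : I × G × Λ, {w : List α | ∃ a u, w = a :: u ∧
      (u.map f).foldl (reesMul P) (f a) = some t}) ∪ {[]})ᶜ) :=
    SH.iUnion_prop fun _ => ((SH.iUnion fun t => h0 t).union SH.eps).compl
  refine Eq.mp (congrArg (SH 1) ?_) (h1.union h2)
  ext w
  rw [Set.mem_union, Set.mem_iUnion, Set.mem_iUnion]
  constructor
  · rintro (⟨t, h⟩ | ⟨hS, h⟩)
    · rw [Set.mem_iUnion] at h
      obtain ⟨hS, a, u, rfl, h⟩ := h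
      exact ⟨a, u, rfl, by rw [h]; exact hS⟩
    · cases w with
      | nil => exact absurd (Or.inr rfl) h
      | cons a u =>
        refine ⟨a, u, rfl, ?_⟩
        cases hv : (u.map f).foldl (reesMul P) (f a) with
        | none => exact hS
        | some t =>
          exfalso
          apply h
          left
          rw [Set.mem_iUnion]
          exact ⟨t, a, u, rfl, hv⟩
  · rintro ⟨a, u, rfl, h⟩
    cases hv : (u.map f).foldl (reesMul P) (f a) with
    | none =>
      right
      rw [hv] at h
      refine ⟨h, ?_⟩
      rintro (h3 | h3)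
      · rw [Set.mem_iUnion] at h3
        obtain ⟨t, a', u', he, h4⟩ := h3
        rw [List.cons.injEq] at he
        obtain ⟨rfl, rfl⟩ := he
        rw [hv] at h4
        cases h4
      · cases h3
    | some t =>
      left
      rw [hv] at h
      refine ⟨t, ?_⟩
      rw [Set.mem_iUnion]
      exact ⟨h, a, u, rfl, hv⟩

end rees

end Vale.Agent.P329.H157
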