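import Vale.Agent.P329.H157.Lang

namespace Vale.Agent.P329.H157

open H259 (pw pw_zero pw_succ pw_one pw_add pw_succ' pw_mul pw_length)

variable {α B B' : Type}

/-- Concatenations along a list, in the order of the list. -/
def subf (D : B → Set (List α)) : List B → Set (List α)
  | [] => {[]}
  | b :: X => cat (D b) (subf D X)

/-- Concatenations along a history (most recent first). -/
def sub (D : B → Set (List α)) : List B → Set (List α)
  | [] => {[]}
  | b :: X => cat (sub D X) (D b)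

/-- Words whose label history lies in `L`. -/
def subL (D : B → Set (List α)) (L : Set (List B)) : Set (List α) := {u | ∃ X ∈ L, u ∈ sub D X}

theorem cat_assoc (A C E : Set (List α)) : cat (cat A C) E = cat A (cat C E) := by
  ext w
  constructor
  · rintro ⟨_, ⟨u, hu, v, hv, rfl⟩, t, ht, rfl⟩
    exact ⟨u, hu, v ++ t, ⟨v, hv, t, ht, rfl⟩, by simp⟩
  · rintro ⟨u, hu, _, ⟨v, hv, t, ht, rfl⟩, rfl⟩
    exact ⟨u ++ v, ⟨u, hu, v, hv, rfl⟩, t, ht, by simp⟩

theorem cat_nil (A : Set (List α)) : cat A {[]} = A := by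
  ext w
  constructor
  · rintro ⟨u, hu, v, hv, rfl⟩
    rw [Set.mem_singleton_iff] at hv
    subst hv
    simpa using hu
  · intro h; exact ⟨w, h, [], rfl, by simp⟩

theorem nil_cat (A : Set (List α)) : cat {[]} A = A := by
  ext w
  constructor
  · rintro ⟨u, hu, v, hv, rfl⟩
    rw [Set.mem_singleton_iff] at hu
    subst hu
    simpa using hv
  · intro h; exact ⟨[], rfl, w, h, by simp⟩

theorem subf_append (D : B → Set (List α)) (X Y : List B) :
    subf D (X ++ Y) = cat (subf D X) (subf D Y) := by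
  induction X with
  | nil => exact (nil_cat _).symm
  | cons b X ih => rw [List.cons_append, subf, ih, subf, cat_assoc]

theorem sub_append (D : B → Set (List α)) (X Y : List B) :
    sub D (X ++ Y) = cat (sub D Y) (sub D X) := by
  induction X with
  | nil => exact (cat_nil _).symm
  | cons b X ih => rw [List.cons_append, sub, ih, sub, cat_assoc]

theorem subf_reverse (D : B → Set (List α)) (X : List B) : subf D X.reverse = sub D X := by
  induction X with
  | nil => rfl
  | cons b X ih =>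
    rw [List.reverse_cons, subf_append, ih, sub]
    congr 1
    exact cat_nil _

theorem sub_single (D : B → Set (List α)) (b : B) : sub D [b] = D b := nil_cat _

/-- Labelled prefix code. -/
structure PC (D : B → Set (List α)) : Prop where
  ne : ∀ b, [] ∉ D b
  pre : ∀ b b' d d' t t', d ∈ D b → d' ∈ D b' → d ++ t = d' ++ t' → b = b' ∧ d = d'

namespace PC

variable {D : B → Set (List α)}

theorem subf_cmp (h : PC D) : ∀ (X X' : List B) (u u' t t' : List α), u ∈ subf D X →
    u' ∈ subf D X' → u ++ t = u' ++ t' →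
    (∃ Y r, X' = X ++ Y ∧ r ∈ subf D Y ∧ u' = u ++ r) ∨
    (∃ Y r, X = X' ++ Y ∧ r ∈ subf D Y ∧ u = u' ++ r) := by
  intro X
  induction X with
  | nil =>
    intro X' u u' t t' hu hu' _
    rw [subf, Set.mem_singleton_iff] at hu
    subst hu
    exact Or.inl ⟨X', u', rfl, hu', rfl⟩
  | cons b X ih =>
    intro X' u u' t t' hu hu' he
    cases X' with
    | nil =>
      rw [subf, Set.mem_singleton_iff] at hu'
      subst hu'
      exact Or.inr ⟨b :: X, u, rfl, hu, rfl⟩
    | cons b' X' =>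
      obtain ⟨d, hd, u1, hu1, rfl⟩ := hu
      obtain ⟨d', hd', u1', hu1', rfl⟩ := hu'
      rw [List.append_assoc, List.append_assoc] at he
      obtain ⟨rfl, rfl⟩ := h.pre _ _ _ _ _ _ hd hd' he
      have he' := List.append_cancel_left he
      rcases ih X' u1 u1' t t' hu1 hu1' he' with ⟨Y, r, h1, h2, h3⟩ | ⟨Y, r, h1, h2, h3⟩
      · exact Or.inl ⟨Y, r, by rw [h1]; rfl, h2, by rw [h3, List.append_assoc]⟩
      · exact Or.inr ⟨Y, r, by rw [h1]; rfl, h2, by rw [h3, List.append_assoc]⟩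

theorem cmp (h : PC D) {X X' : List B} {u u' t t' : List α} (hu : u ∈ sub D X)
    (hu' : u' ∈ sub D X') (he : u ++ t = u' ++ t') :
    (∃ Y r, X' = Y ++ X ∧ r ∈ sub D Y ∧ u' = u ++ r) ∨
    (∃ Y r, X = Y ++ X' ∧ r ∈ sub D Y ∧ u = u' ++ r) := by
  rw [← subf_reverse] at hu hu'
  rcases h.subf_cmp _ _ _ _ _ _ hu hu' he with ⟨Y, r, h1, h2, h3⟩ | ⟨Y, r, h1, h2, h3⟩
  · left
    refine ⟨Y.reverse, r, ?_, by rw [← subf_reverse, List.reverse_reverse]; exact h2, h3⟩
    have := congrArg List.reverse h1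
    simpa using this
  · right
    refine ⟨Y.reverse, r, ?_, by rw [← subf_reverse, List.reverse_reverse]; exact h2, h3⟩
    have := congrArg List.reverse h1
    simpa using this

theorem nil_mem (h : PC D) {X : List B} (hX : [] ∈ sub D X) : X = [] := by
  cases X with
  | nil => rfl
  | cons b X =>
    obtain ⟨u, -, d, hd, he⟩ := hX
    have : d = [] := (List.append_eq_nil_iff.mp he).2
    subst this
    exact absurd hd (h.ne b)

theorem uniq (h : PC D) {X X' : List B} {u : List α} (hu : u ∈ sub D X) (hu' : u ∈ sub D X') :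
    X = X' := by
  rcases h.cmp hu hu' rfl (t := []) (t' := []) with ⟨Y, r, h1, h2, h3⟩ | ⟨Y, r, h1, h2, h3⟩
  · have : r = [] := by simpa using h3
    subst this
    rw [h1, h.nil_mem h2]; rfl
  · have : r = [] := by simpa using h3
    subst this
    rw [h1, h.nil_mem h2]; rfl

theorem quot (h : PC D) {X X' : List B} {u v : List α} (hu : u ∈ sub D X)
    (huv : u ++ v ∈ sub D X') : ∃ Y, X' = Y ++ X ∧ v ∈ sub D Y := by
  rcases h.cmp (t := v) (t' := []) hu huv (by simp) with ⟨Y, r, h1, h2, h3⟩ | ⟨Y, r, h1, h2, h3⟩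
  · have : v = r := List.append_cancel_left h3
    subst this
    exact ⟨Y, h1, h2⟩
  · have h4 : v = [] ∧ r = [] := by
      have := congrArg List.length h3
      simp only [List.length_append] at this
      constructor <;> apply List.length_eq_zero_iff.mp <;> omega
    obtain ⟨rfl, rfl⟩ := h4
    refine ⟨[], ?_, rfl⟩
    rw [h1, h.nil_mem h2]; rfl

end PC

section subL

variable {D : B → Set (List α)}

theorem subL_mono {L L' : Set (List B)} (h : L ⊆ L') : subL D L ⊆ subL D L' := by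
  rintro u ⟨X, hX, hu⟩
  exact ⟨X, h hX, hu⟩

theorem subL_union (L L' : Set (List B)) : subL D (L ∪ L') = subL D L ∪ subL D L' := by
  ext u
  constructor
  · rintro ⟨X, hX | hX, hu⟩
    · exact Or.inl ⟨X, hX, hu⟩
    · exact Or.inr ⟨X, hX, hu⟩
  · rintro (⟨X, hX, hu⟩ | ⟨X, hX, hu⟩)
    · exact ⟨X, Or.inl hX, hu⟩
    · exact ⟨X, Or.inr hX, hu⟩

theorem subL_iUnion {ι : Sort*} (L : ι → Set (List B)) :
    subL D (⋃ i, L i) = ⋃ i, subL D (L i) := by
  ext u
  simp only [Set.mem_iUnion, subL, Set.mem_ofPred_eq]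
  constructor
  · rintro ⟨X, ⟨i, hX⟩, hu⟩; exact ⟨i, X, hX, hu⟩
  · rintro ⟨i, X, hX, hu⟩; exact ⟨X, ⟨i, hX⟩, hu⟩

theorem subL_compl (h : PC D) (L : Set (List B)) :
    subL D Lᶜ = subL D Set.univ \ subL D L := by
  ext u
  constructor
  · rintro ⟨X, hX, hu⟩
    refine ⟨⟨X, trivial, hu⟩, ?_⟩
    rintro ⟨X', hX', hu'⟩
    rw [h.uniq hu hu'] at hX
    exact hX hX'
  · rintro ⟨⟨X, -, hu⟩, hn⟩
    exact ⟨X, fun hX => hn ⟨X, hX, hu⟩, hu⟩

theorem subL_inter (h : PC D) (L L' : Set (List B)) :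
    subL D (L ∩ L') = subL D L ∩ subL D L' := by
  ext u
  constructor
  · rintro ⟨X, hX, hu⟩
    exact ⟨⟨X, hX.1, hu⟩, ⟨X, hX.2, hu⟩⟩
  · rintro ⟨⟨X, hX, hu⟩, ⟨X', hX', hu'⟩⟩
    rw [← h.uniq hu hu'] at hX'
    exact ⟨X, ⟨hX, hX'⟩, hu⟩

/-- `cat L2 L1` at the level of histories: first `L1`, then `L2`. -/
theorem subL_cat (L1 L2 : Set (List B)) :
    subL D (cat L2 L1) = cat (subL D L1) (subL D L2) := by
  ext u
  constructor
  · rintro ⟨_, ⟨Y, hY, X, hX, rfl⟩, hu⟩
    rw [sub_append] at hu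
    obtain ⟨p, hp, q, hq, rfl⟩ := hu
    exact ⟨p, ⟨X, hX, hp⟩, q, ⟨Y, hY, hq⟩, rfl⟩
  · rintro ⟨p, ⟨X, hX, hp⟩, q, ⟨Y, hY, hq⟩, rfl⟩
    exact ⟨Y ++ X, ⟨Y, hY, X, hX, rfl⟩, by rw [sub_append]; exact ⟨p, hp, q, hq, rfl⟩⟩

theorem subL_single (X : List B) : subL D {X} = sub D X := by
  ext u
  constructor
  · rintro ⟨Y, hY, hu⟩
    rw [Set.mem_singleton_iff] at hY
    rwa [hY] at hu
  · intro hu; exact ⟨X, rfl, hu⟩

theorem subL_kst (P : B → Prop) :
    subL D {X | ∀ x ∈ X, P x} = kst (⋃ b : B, ⋃ _ : P b, D b) := by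
  ext u
  constructor
  · rintro ⟨X, hX, hu⟩
    induction X generalizing u with
    | nil =>
      rw [sub, Set.mem_singleton_iff] at hu
      subst hu
      exact H259.kst_nil _
    | cons b X ih =>
      obtain ⟨p, hp, d, hd, rfl⟩ := hu
      refine H259.kst_append (ih _ (fun x hx => hX x (List.mem_cons_of_mem _ hx)) hp) ?_
      apply H259.kst_of_mem
      simp only [Set.mem_iUnion]
      exact ⟨b, hX b List.mem_cons_self, hd⟩
  · rintro ⟨L, hL, rfl⟩
    have key : ∀ L : List (List α), (∀ u ∈ L, u ∈ ⋃ b : B, ⋃ _ : P b, D b) →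
        ∃ X : List B, (∀ x ∈ X, P x) ∧ L.flatten ∈ subf D X := by
      intro L
      induction L with
      | nil => intro _; exact ⟨[], by simp, rfl⟩
      | cons u L ih =>
        intro hL
        obtain ⟨X, hX, hu⟩ := ih fun y hy => hL y (List.mem_cons_of_mem _ hy)
        have h1 := hL u List.mem_cons_self
        simp only [Set.mem_iUnion] at h1
        obtain ⟨b, hb, hd⟩ := h1
        refine ⟨b :: X, ?_, ?_⟩
        · intro x hx
          rcases List.mem_cons.mp hx with rfl | hx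
          · exact hb
          · exact hX x hx
        · exact ⟨u, hd, _, hu, rfl⟩
    obtain ⟨X, hX, hu⟩ := key L hL
    refine ⟨X.reverse, ?_, ?_⟩
    · intro x hx; exact hX x (List.mem_reverse.mp hx)
    · rw [← subf_reverse, List.reverse_reverse]; exact hu

theorem subL_univ : subL D Set.univ = kst (⋃ b : B, D b) := by
  have := subL_kst (D := D) (fun _ => True)
  simpa [Set.ofPred_true] using this

end subL

/-- The family of the words labelled by the languages `W b`. -/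
def ext (D : B → Set (List α)) (W : B' → Set (List B)) : B' → Set (List α) :=
  fun b => subL D (W b)

theorem sub_ext (D : B → Set (List α)) (W : B' → Set (List B)) (Ω : List B') :
    sub (ext D W) Ω = subL D (subf W Ω) := by
  induction Ω with
  | nil => rw [subf, subL_single]; rfl
  | cons b Ω ih => rw [sub, ih, subf, subL_cat]; rfl

theorem subL_ext (D : B → Set (List α)) (W : B' → Set (List B)) (L : Set (List B')) :
    subL (ext D W) L = subL D {X | ∃ Ω ∈ L, X ∈ subf W Ω} := by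
  ext u
  constructor
  · rintro ⟨Ω, hΩ, hu⟩
    rw [sub_ext] at hu
    obtain ⟨X, hX, hu⟩ := hu
    exact ⟨X, ⟨Ω, hΩ, hX⟩, hu⟩
  · rintro ⟨X, ⟨Ω, hΩ, hX⟩, hu⟩
    exact ⟨Ω, hΩ, by rw [sub_ext]; exact ⟨X, hX, hu⟩⟩

/-- Structure of the powers of `v` which lie in `D*`. -/
theorem PC.cyc {D : B → Set (List α)} (h : PC D) {v : List α} {j : ℕ} (hj : 1 ≤ j)
    (hv : pw v j ∈ subL D Set.univ) :
    ∃ j0 X0, 1 ≤ j0 ∧ pw v j0 ∈ sub D X0 ∧ (∀ i, 1 ≤ i → i < j0 → pw v i ∉ subL D Set.univ) ∧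
      (∀ t, pw v (j0 * t) ∈ sub D (pw X0 t)) ∧
      (∀ n Y, pw v n ∈ sub D Y → ∃ t, n = j0 * t ∧ Y = pw X0 t) := by
  classical
  have hex : ∃ j, 1 ≤ j ∧ pw v j ∈ subL D Set.univ := ⟨j, hj, hv⟩
  obtain ⟨h1, X0, -, h2⟩ := Nat.find_spec hex
  set j0 := Nat.find hex with hj0
  have hmin : ∀ i, 1 ≤ i → i < j0 → pw v i ∉ subL D Set.univ := by
    intro i hi hlt hm
    exact Nat.find_min hex hlt ⟨hi, hm⟩
  have hpow : ∀ t, pw v (j0 * t) ∈ sub D (pw X0 t) := by
    intro t
    induction t with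
    | zero => exact rfl
    | succ t ih =>
      rw [Nat.mul_succ, pw_add v, pw_succ X0, sub_append]
      exact ⟨_, ih, _, h2, rfl⟩
  refine ⟨j0, X0, h1, h2, hmin, hpow, ?_⟩
  intro n Y hY
  have hn : n = j0 * (n / j0) + n % j0 := (Nat.div_add_mod n j0).symm
  have h3 : pw v (j0 * (n / j0)) ++ pw v (n % j0) ∈ sub D Y := by
    rw [← pw_add, ← hn]; exact hY
  obtain ⟨Y', hY', hr⟩ := h.quot (hpow _) h3
  have hr0 : n % j0 = 0 := by
    by_contra hne
    exact hmin (n % j0) (Nat.one_le_iff_ne_zero.mpr hne) (Nat.mod_lt _ h1) ⟨Y', trivial, hr⟩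
  refine ⟨n / j0, by omega, ?_⟩
  rw [hr0] at hr
  have : Y' = [] := h.nil_mem hr
  rw [hY', this]; rfl

end Vale.Agent.P329.H157
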