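import Vale.Agent.P329.H157.Cap

namespace Vale.Agent.P329.H157

variable {α B : Type}

/-- The induction hypothesis: all functions with at most `s` nested sums are decided. -/
def PS (s : ℕ) : Prop :=
  ∀ (B : Type) [Finite B] (l c : ℕ) (F : List B → ZMod 2),
    RG (fun _ => 0) (fun _ => 1) l c s F → ∀ (α : Type) [Finite α] (D : B → Set (List α)),
      Good D → Cap D F

/-- parity of the number of letters outside `f` -/
def yf (f : B → ZMod 2) (X : List B) : ZMod 2 := (X.map fun x => f x + 1).sum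

open Classical in
/-- `0` if the last `J` letters are all in `f`, and `1` otherwise -/
noncomputable def gf (f : B → ZMod 2) (J : ℕ) (X : List B) : ZMod 2 :=
  if J ≤ X.length ∧ ∀ x ∈ X.take J, f x = 1 then 0 else 1

section

variable {f : B → ZMod 2} {c J s : ℕ}

theorem yf_append (X Y : List B) : yf f (X ++ Y) = yf f X + yf f Y := by
  rw [yf, List.map_append, List.sum_append]; rfl

theorem yf_run {X : List B} (h : ∀ x ∈ X, f x = 1) : yf f X = 0 := by
  induction X with
  | nil => rfl
  | cons x X ih =>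
    rw [yf, List.map_cons, List.sum_cons, h x List.mem_cons_self]
    have := ih fun y hy => h y (List.mem_cons_of_mem _ hy)
    rw [yf] at this
    rw [this]; rfl

theorem gf_loc (hJ : J ≤ c) : Loc 0 c (gf f J) := by
  intro X Y _ h
  have h1 : X.take J = Y.take J := by
    have := congrArg (List.take J) h
    rwa [List.take_take, List.take_take, Nat.min_eq_left hJ] at this
  have h2 : J ≤ X.length ↔ J ≤ Y.length := by
    have := congrArg List.length h
    rw [List.length_take, List.length_take] at this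
    omega
  rw [gf, gf, h1]
  simp only [h2]

theorem gf_run {X : List B} (h : J ≤ X.length) (h2 : ∀ x ∈ X, f x = 1) (Y : List B) :
    gf f J (X ++ Y) = 0 := by
  rw [gf, if_pos]
  refine ⟨by rw [List.length_append]; omega, ?_⟩
  rw [List.take_append_of_le_length h]
  exact fun x hx => h2 x (List.mem_of_mem_take hx)

theorem TT_run {b : B} {F : List B → ZMod 2} {p : List B} (hp : J ≤ p.length)
    (hpf : ∀ x ∈ p, f x = 1) (X : List B) : ∀ r : List B, (∀ x ∈ r, f x = 1) →
    TT b (fun X => gf f J X * F X) (r ++ (p ++ X)) = TT b (fun X => gf f J X * F X) (p ++ X) := by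
  intro r
  induction r with
  | nil => intro _; rfl
  | cons x r ih =>
    intro hr
    have h1 : gf f J (r ++ (p ++ X)) = 0 := by
      rw [← List.append_assoc]
      apply gf_run
      · rw [List.length_append]; omega
      · intro y hy
        rcases List.mem_append.mp hy with hy | hy
        · exact hr y (List.mem_cons_of_mem _ hy)
        · exact hpf y hy
    rw [List.cons_append, TT, ih fun y hy => hr y (List.mem_cons_of_mem _ hy), h1]
    simp

/-- The middle part of a long run can be changed. -/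
theorem middle (hJ : J ≤ c) {F : List B → ZMod 2} (h : RG (yf f) (gf f J) 0 c s F)
    {q p : List B} (hq : q.length = c) (hqf : ∀ x ∈ q, f x = 1) (hp : J ≤ p.length)
    (hpf : ∀ x ∈ p, f x = 1) {m m' : List B} (hm : ∀ x ∈ m, f x = 1) (hm' : ∀ x ∈ m', f x = 1)
    (X : List B) : ∀ Y : List B,
      F (Y ++ (q ++ (m ++ (p ++ X)))) = F (Y ++ (q ++ (m' ++ (p ++ X)))) := by
  have loc : ∀ h : List B → ZMod 2, Loc 0 c h → ∀ Y : List B,
      h (Y ++ (q ++ (m ++ (p ++ X)))) = h (Y ++ (q ++ (m' ++ (p ++ X)))) := by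
    intro h hh Y
    apply hh
    · rw [pow_zero, Nat.mod_one, Nat.mod_one]
    · have e : ∀ R : List B, (Y ++ (q ++ R)).take c = (Y ++ q).take c := by
        intro R
        rw [← List.append_assoc]
        exact List.take_append_of_le_length (by rw [List.length_append]; omega)
      rw [e, e]
  induction h with
  | nu s =>
    intro Y
    simp only [yf_append, yf_run hm, yf_run hm']
  | loc s h hh => exact loc h hh
  | add s F G _ _ ih1 ih2 =>
    intro Y
    change F _ + G _ = F _ + G _
    rw [ih1 Y, ih2 Y]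
  | mul s h F hh _ ih =>
    intro Y
    change h _ * F _ = h _ * F _
    rw [ih Y, loc h hh Y]
  | T s b F _ ih =>
    intro Y
    induction Y with
    | nil =>
      have h1 : ∀ m : List B, (∀ x ∈ m, f x = 1) → TT b (fun X => gf f J X * F X)
          ([] ++ (q ++ (m ++ (p ++ X)))) = TT b (fun X => gf f J X * F X) (p ++ X) := by
        intro m hm
        rw [List.nil_append, ← List.append_assoc q m]
        apply TT_run hp hpf
        intro x hx
        rcases List.mem_append.mp hx with hx | hx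
        · exact hqf x hx
        · exact hm x hx
      rw [h1 m hm, h1 m' hm']
    | cons y Y ihY =>
      rw [List.cons_append, List.cons_append, TT, TT, ihY, loc _ (gf_loc hJ) Y, ih Y]

end

/-! ### records of runs -/

section runs

variable (f : B → ZMod 2) (c : ℕ)

/-- records of runs -/
abbrev Rn : Type := {w : List B // (∀ x ∈ w, f x = 1) ∧ w.length ≤ 2 * c}

/-- letters outside `f` -/
abbrev Z0 : Type := {x : B // f x = 0}

instance [Finite B] : Finite (Rn f c) :=
  ((List.finite_length_le B (2 * c)).subset fun _ h => h.2).to_subtype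

open Classical in
/-- runs with a given record -/
def runL (ρ : List B) : Set (List B) :=
  if ρ.length < 2 * c then {ρ} else
    P329.cat {ρ.take c} (P329.cat {m | ∀ x ∈ m, f x = 1} {ρ.drop c})

variable {f c}

theorem runL_f {ρ : Rn f c} {w : List B} (hw : w ∈ runL f c ρ.1) : ∀ x ∈ w, f x = 1 := by
  rw [runL] at hw
  by_cases h : ρ.1.length < 2 * c
  · rw [if_pos h, Set.mem_singleton_iff] at hw
    subst hw
    exact ρ.2.1
  · rw [if_neg h] at hw
    obtain ⟨q, hq, _, ⟨m, hm, p, hp, rfl⟩, rfl⟩ := hw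
    rw [Set.mem_singleton_iff] at hq hp
    subst hq hp
    intro x hx
    rcases List.mem_append.mp hx with hx | hx
    · exact ρ.2.1 x (List.mem_of_mem_take hx)
    · rcases List.mem_append.mp hx with hx | hx
      · exact hm x hx
      · exact ρ.2.1 x (List.mem_of_mem_drop hx)

theorem runL_cover {w : List B} (hw : ∀ x ∈ w, f x = 1) : ∃ ρ : Rn f c, w ∈ runL f c ρ.1 := by
  rcases Nat.lt_or_ge w.length (2 * c) with hlt | hge
  · exact ⟨⟨w, hw, hlt.le⟩, by rw [runL, if_pos hlt]; rfl⟩
  · have hlen : (w.take c ++ w.drop (w.length - c)).length = 2 * c := by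
      rw [List.length_append, List.length_take, List.length_drop]; omega
    refine ⟨⟨w.take c ++ w.drop (w.length - c), ?_, hlen.le⟩, ?_⟩
    · intro x hx
      rcases List.mem_append.mp hx with hx | hx
      · exact hw x (List.mem_of_mem_take hx)
      · exact hw x (List.mem_of_mem_drop hx)
    · rw [runL, if_neg (by rw [hlen]; exact Nat.lt_irrefl _)]
      have h1 : (w.take c ++ w.drop (w.length - c)).take c = w.take c :=
        List.take_left' (by rw [List.length_take]; omega)
      have h2 : (w.take c ++ w.drop (w.length - c)).drop c = w.drop (w.length - c) :=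
        List.drop_left' (by rw [List.length_take]; omega)
      rw [h1, h2]
      refine ⟨_, rfl, _, ⟨(w.drop c).take (w.length - c - c), ?_, _, rfl, rfl⟩, ?_⟩
      · intro x hx
        exact hw x (List.mem_of_mem_drop (List.mem_of_mem_take hx))
      · have h3 : w.drop (w.length - c) = (w.drop c).drop (w.length - c - c) := by
          rw [List.drop_drop]; congr 1; omega
        rw [h3, List.take_append_drop, List.take_append_drop]

theorem runL_disj {ρ ρ' : Rn f c} {w : List B} (h : w ∈ runL f c ρ.1) (h' : w ∈ runL f c ρ'.1) :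
    ρ = ρ' := by
  apply Subtype.ext
  rw [runL] at h h'
  by_cases h1 : ρ.1.length < 2 * c
  · rw [if_pos h1, Set.mem_singleton_iff] at h
    by_cases h2 : ρ'.1.length < 2 * c
    · rw [if_pos h2, Set.mem_singleton_iff] at h'
      rw [← h, ← h']
    · rw [if_neg h2] at h'
      obtain ⟨q, hq, _, ⟨m, hm, p, hp, rfl⟩, h3⟩ := h'
      rw [Set.mem_singleton_iff] at hq hp
      subst hq hp
      exfalso
      have := congrArg List.length h3
      rw [List.length_append, List.length_append, List.length_take, List.length_drop, h] at this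
      omega
  · rw [if_neg h1] at h
    obtain ⟨q, hq, _, ⟨m, hm, p, hp, rfl⟩, h3⟩ := h
    rw [Set.mem_singleton_iff] at hq hp
    subst hq hp
    have e1 : ρ.1.length = 2 * c := by have := ρ.2.2; omega
    by_cases h2 : ρ'.1.length < 2 * c
    · rw [if_pos h2, Set.mem_singleton_iff] at h'
      exfalso
      have := congrArg List.length h3
      rw [List.length_append, List.length_append, List.length_take, List.length_drop, h'] at this
      omega
    · rw [if_neg h2] at h'
      obtain ⟨q', hq', _, ⟨m', hm', p', hp', rfl⟩, h4⟩ := h'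
      rw [Set.mem_singleton_iff] at hq' hp'
      subst hq' hp'
      have e2 : ρ'.1.length = 2 * c := by have := ρ'.2.2; omega
      rw [← h3] at h4
      have h5 := List.append_inj h4 (by rw [List.length_take, List.length_take]; omega)
      have h6 := List.append_inj' h5.2 (by rw [List.length_drop, List.length_drop]; omega)
      rw [← List.take_append_drop c ρ.1, ← h5.1, ← h6.2, List.take_append_drop]

theorem runL_sf [Finite α] [Finite B] {D : B → Set (List α)} (hD : Good D) (hf : Null D f)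
    (ρ : List B) : SH 0 (subL D (runL f c ρ)) := by
  rw [runL]
  by_cases h : ρ.length < 2 * c
  · rw [if_pos h]; exact subL_fin hD (Set.finite_singleton _)
  · rw [if_neg h, subL_cat, subL_cat]
    exact ((subL_fin hD (Set.finite_singleton _)).cat (hD.run_sf hf)).cat
      (subL_fin hD (Set.finite_singleton _))

variable (f c) in
/-- records of walk words -/
abbrev Wr : Type := Z0 f × Rn f c × Z0 f × Rn f c

/-- walk words with a given record -/
def WL (t : Wr f c) : Set (List B) :=
  P329.cat {[t.1.1]} (P329.cat (runL f c t.2.1.1) (P329.cat {[t.2.2.1.1]} (runL f c t.2.2.2.1)))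

/-- representative of a record -/
def rep (t : Wr f c) : List B := t.1.1 :: (t.2.1.1 ++ (t.2.2.1.1 :: t.2.2.2.1))

theorem mem_WL {t : Wr f c} {X : List B} : X ∈ WL t ↔ ∃ w2 ∈ runL f c t.2.1.1,
    ∃ w1 ∈ runL f c t.2.2.2.1, X = t.1.1 :: (w2 ++ (t.2.2.1.1 :: w1)) := by
  constructor
  · rintro ⟨a, ha, _, ⟨w2, hw2, _, ⟨b, hb, w1, hw1, rfl⟩, rfl⟩, rfl⟩
    rw [Set.mem_singleton_iff] at ha hb
    subst ha hb
    exact ⟨w2, hw2, w1, hw1, by simp⟩
  · rintro ⟨w2, hw2, w1, hw1, rfl⟩
    exact ⟨_, rfl, _, ⟨w2, hw2, _, ⟨_, rfl, w1, hw1, rfl⟩, rfl⟩, by simp⟩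

theorem rc_run {p : List B} (hp : ∀ y ∈ p, f y = 1) : rc f p = 0 := by
  rw [rc, List.countP_eq_zero]
  intro y hy
  rw [hp y hy]; decide

theorem split_run (Z : List B) : ∃ p q, Z = p ++ q ∧ (∀ y ∈ p, f y = 1) ∧
    (q = [] ∨ ∃ y q', q = y :: q' ∧ f y = 0) := by
  induction Z with
  | nil => exact ⟨[], [], rfl, by simp, Or.inl rfl⟩
  | cons z Z ihZ =>
    rcases zmod2 (f z) with hz | hz
    · exact ⟨[], z :: Z, rfl, by simp, Or.inr ⟨z, Z, rfl, hz⟩⟩
    · obtain ⟨p, q, rfl, hp, hq⟩ := ihZ
      exact ⟨z :: p, q, rfl, by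
        intro y hy
        rcases List.mem_cons.mp hy with rfl | hy
        · exact hz
        · exact hp y hy, hq⟩

theorem WL_walk (t : Wr f c) : WL t ⊆ Walk f := by
  intro X hX
  obtain ⟨w2, hw2, w1, hw1, rfl⟩ := mem_WL.mp hX
  refine ⟨?_, _, _, rfl, t.1.2⟩
  rw [rc_cons, rc_append, rc_cons, rc_run (runL_f hw2), rc_run (runL_f hw1), if_pos t.1.2,
    if_pos t.2.2.1.2]

theorem WL_cover (X : List B) (hX : X ∈ Walk f) : ∃ t : Wr f c, X ∈ WL t := by
  obtain ⟨h1, x, X', rfl, hx⟩ := hX
  obtain ⟨p, q, rfl, hp, hq⟩ := split_run (f := f) X'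
  rcases hq with rfl | ⟨y, q', rfl, hy⟩
  · exfalso
    rw [rc_cons, rc_append, rc_run hp, rc_nil, if_pos hx] at h1
    omega
  · rw [rc_cons, rc_append, rc_run hp, rc_cons, if_pos hx, if_pos hy] at h1
    have h2 : rc f q' = 0 := by omega
    have hq' : ∀ y ∈ q', f y = 1 := by
      intro y hy
      rw [rc, List.countP_eq_zero] at h2
      have := h2 y hy
      rcases zmod2 (f y) with h | h
      · simp [h] at this
      · exact h
    obtain ⟨ρ2, h3⟩ := runL_cover (c := c) hp
    obtain ⟨ρ1, h4⟩ := runL_cover (c := c) hq'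
    exact ⟨(⟨x, hx⟩, ρ2, ⟨y, hy⟩, ρ1), mem_WL.mpr ⟨p, h3, q', h4, rfl⟩⟩

theorem WL_disj (t t' : Wr f c) (X : List B) (h : X ∈ WL t) (h' : X ∈ WL t') : t = t' := by
  obtain ⟨w2, hw2, w1, hw1, rfl⟩ := mem_WL.mp h
  obtain ⟨w2', hw2', w1', hw1', he⟩ := mem_WL.mp h'
  rw [List.cons.injEq] at he
  have aux : ∀ (p p' : List B) (x x' : B) (q q' : List B), (∀ y ∈ p, f y = 1) →
      (∀ y ∈ p', f y = 1) → f x = 0 → f x' = 0 → p ++ (x :: q) = p' ++ (x' :: q') →
      p = p' ∧ x = x' ∧ q = q' := by
    intro p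
    induction p with
    | nil =>
      intro p' x x' q q' _ h2 h3 h4 h5
      cases p' with
      | nil =>
        rw [List.nil_append, List.nil_append, List.cons.injEq] at h5
        exact ⟨rfl, h5.1, h5.2⟩
      | cons y p' =>
        exfalso
        rw [List.nil_append, List.cons_append, List.cons.injEq] at h5
        have := h2 y List.mem_cons_self
        rw [← h5.1, h3] at this
        exact absurd this (by decide)
    | cons z p ih =>
      intro p' x x' q q' h1 h2 h3 h4 h5
      cases p' with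
      | nil =>
        exfalso
        rw [List.nil_append, List.cons_append, List.cons.injEq] at h5
        have := h1 z List.mem_cons_self
        rw [h5.1, h4] at this
        exact absurd this (by decide)
      | cons y p' =>
        rw [List.cons_append, List.cons_append, List.cons.injEq] at h5
        obtain ⟨h6, h7, h8⟩ := ih p' x x' q q' (fun y hy => h1 y (List.mem_cons_of_mem _ hy))
          (fun y hy => h2 y (List.mem_cons_of_mem _ hy)) h3 h4 h5.2
        exact ⟨by rw [h5.1, h6], h7, h8⟩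
  obtain ⟨h1, h2, h3⟩ := aux _ _ _ _ _ _ (runL_f hw2) (runL_f hw2') t.2.2.1.2 t'.2.2.1.2 he.2
  rw [← h1] at hw2'
  rw [← h3] at hw1'
  have h4 := runL_disj hw2 hw2'
  have h5 := runL_disj hw1 hw1'
  exact Prod.ext (Subtype.ext he.1) (Prod.ext h4 (Prod.ext (Subtype.ext h2) h5))

theorem WL_sf [Finite α] [Finite B] {D : B → Set (List α)} (hD : Good D) (hf : Null D f)
    (t : Wr f c) : SH 0 (subL D (WL t)) := by
  rw [WL, subL_cat, subL_cat, subL_cat]
  exact (((runL_sf hD hf _).cat (subL_fin hD (Set.finite_singleton _))).cat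
    (runL_sf hD hf _)).cat (subL_fin hD (Set.finite_singleton _))

theorem good_WL [Finite α] [Finite B] {D : B → Set (List α)} (hD : Good D) (hf : Null D f) :
    Good (ext D (WL : Wr f c → Set (List B))) :=
  hD.walk hf WL_walk WL_cover WL_disj (WL_sf hD hf)

end runs

/-! ### the walk step -/

section step

variable {f : B → ZMod 2} {c J s : ℕ} {F : List B → ZMod 2}

theorem run_rep (hJ : J ≤ c) (h : RG (yf f) (gf f J) 0 c s F) {ρ : Rn f c} {w : List B}
    (hw : w ∈ runL f c ρ.1) (Y X : List B) : F (Y ++ (w ++ X)) = F (Y ++ (ρ.1 ++ X)) := by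
  rw [runL] at hw
  by_cases h1 : ρ.1.length < 2 * c
  · rw [if_pos h1, Set.mem_singleton_iff] at hw
    rw [hw]
  · rw [if_neg h1] at hw
    obtain ⟨q, hq, _, ⟨m, hm, p, hp, rfl⟩, rfl⟩ := hw
    rw [Set.mem_singleton_iff] at hq hp
    subst hq hp
    have e1 : ρ.1.length = 2 * c := by have := ρ.2.2; omega
    have := middle hJ h (q := ρ.1.take c) (p := ρ.1.drop c) (by rw [List.length_take]; omega)
      (fun x hx => ρ.2.1 x (List.mem_of_mem_take hx)) (by rw [List.length_drop]; omega)
      (fun x hx => ρ.2.1 x (List.mem_of_mem_drop hx)) hm (m' := []) (by simp) X Y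
    have e2 : ρ.1.take c ++ (ρ.1.drop c ++ X) = ρ.1 ++ X := by
      rw [← List.append_assoc, List.take_append_drop]
    rw [List.append_assoc, List.append_assoc, this, List.nil_append, e2]

theorem rep_eq (hJ : J ≤ c) (h : RG (yf f) (gf f J) 0 c s F) :
    ∀ (Ω : List (Wr f c)) (X Y : List B), X ∈ subf WL Ω →
      F (Y ++ X) = F (Y ++ (Ω.map rep).flatten) := by
  intro Ω
  induction Ω with
  | nil =>
    intro X Y hX
    rw [subf, Set.mem_singleton_iff] at hX
    rw [hX]; rfl
  | cons t Ω ih =>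
    rintro _ Y ⟨w, hw, X, hX, rfl⟩
    obtain ⟨w2, hw2, w1, hw1, rfl⟩ := mem_WL.mp hw
    have e1 : Y ++ ((t.1.1 :: (w2 ++ (t.2.2.1.1 :: w1))) ++ X) =
        (Y ++ [t.1.1]) ++ (w2 ++ ([t.2.2.1.1] ++ (w1 ++ X))) := by simp
    rw [e1, run_rep hJ h hw2]
    have e2 : (Y ++ [t.1.1]) ++ (t.2.1.1 ++ ([t.2.2.1.1] ++ (w1 ++ X))) =
        (Y ++ [t.1.1] ++ t.2.1.1 ++ [t.2.2.1.1]) ++ (w1 ++ X) := by simp
    rw [e2, run_rep hJ h hw1, ← List.append_assoc, ih _ _ hX]
    simp [rep]

theorem yf_rep (t : Wr f c) : yf f (rep t) = 0 := by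
  have e : rep t = [t.1.1] ++ (t.2.1.1 ++ ([t.2.2.1.1] ++ t.2.2.2.1)) := by simp [rep]
  rw [e, yf_append, yf_append, yf_append, yf_run t.2.1.2.1, yf_run t.2.2.2.2.1]
  simp only [yf, List.map_cons, List.map_nil, List.sum_cons, List.sum_nil, t.1.2, t.2.2.1.2]
  decide

theorem yf_flat (Ω : List (Wr f c)) : yf f (Ω.map rep).flatten = 0 := by
  induction Ω with
  | nil => rfl
  | cons t Ω ih => rw [List.map_cons, List.flatten_cons, yf_append, yf_rep, ih, add_zero]

variable (f c) in
/-- records of partial walk words -/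
abbrev Pr : Type := Rn f c ⊕ (Rn f c × Z0 f × Rn f c)

/-- partial walk words with a given record -/
def PL : Pr f c → Set (List B)
  | .inl ρ => runL f c ρ.1
  | .inr t => P329.cat (runL f c t.1.1) (P329.cat {[t.2.1.1]} (runL f c t.2.2.1))

/-- representatives -/
def repP : Pr f c → List B
  | .inl ρ => ρ.1
  | .inr t => t.1.1 ++ ([t.2.1.1] ++ t.2.2.1)

theorem PL_sf [Finite α] [Finite B] {D : B → Set (List α)} (hD : Good D) (hf : Null D f)
    (p : Pr f c) : SH 0 (subL D (PL p)) := by
  rcases p with ρ | t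
  · exact runL_sf hD hf _
  · rw [PL, subL_cat, subL_cat]
    exact ((runL_sf hD hf _).cat (subL_fin hD (Set.finite_singleton _))).cat
      (runL_sf hD hf _)

theorem PL_rep (hJ : J ≤ c) (h : RG (yf f) (gf f J) 0 c s F) {p : Pr f c} {V : List B}
    (hV : V ∈ PL p) (X : List B) : F (V ++ X) = F (repP p ++ X) := by
  rcases p with ρ | t
  · exact run_rep hJ h hV [] X
  · obtain ⟨w2, hw2, _, ⟨b, hb, w1, hw1, rfl⟩, rfl⟩ := hV
    rw [Set.mem_singleton_iff] at hb
    subst hb
    have e1 : w2 ++ ([t.2.1.1] ++ w1) ++ X = [] ++ (w2 ++ ([t.2.1.1] ++ (w1 ++ X))) := by simp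
    rw [e1, run_rep hJ h hw2]
    have e2 : [] ++ (t.1.1 ++ ([t.2.1.1] ++ (w1 ++ X))) =
        (t.1.1 ++ [t.2.1.1]) ++ (w1 ++ X) := by simp
    rw [e2, run_rep hJ h hw1]
    simp [repP]

theorem decomp (X : List B) : ∃ (p : Pr f c) (V X' : List B), V ∈ PL p ∧ X' ∈ WS f ∧
    X = V ++ X' := by
  obtain ⟨w, X1, rfl, hw, hX1⟩ := split_run (f := f) X
  obtain ⟨ρ, hρ⟩ := runL_cover (c := c) hw
  rcases Nat.mod_two_eq_zero_or_one (rc f X1) with h | h
  · exact ⟨.inl ρ, w, X1, hρ, ⟨h, hX1⟩, rfl⟩
  · rcases hX1 with rfl | ⟨x, X2, rfl, hx⟩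
    · rw [rc_nil] at h; omega
    · obtain ⟨w1, X3, rfl, hw1, hX3⟩ := split_run (f := f) X2
      obtain ⟨ρ1, hρ1⟩ := runL_cover (c := c) hw1
      refine ⟨.inr (ρ, ⟨x, hx⟩, ρ1), w ++ ([x] ++ w1), X3, ⟨w, hρ, _, ⟨_, rfl, w1, hρ1, rfl⟩, rfl⟩,
        ⟨?_, hX3⟩, by simp⟩
      rw [rc_cons, rc_append, rc_run hw1, if_pos hx] at h
      omega

theorem walk_step (hP : PS s) [Finite α] [Finite B] {D : B → Set (List α)} (hD : Good D)
    (hf : Null D f) (hJ : J ≤ c) (h : RG (yf f) (gf f J) 0 c s F) : Cap D F := by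
  have hG : ∀ v : List B, RG (fun _ => 0) (fun _ => 1) 0 c s
      fun Ω : List (Wr f c) => F (v ++ (Ω.map rep).flatten) := by
    intro v
    refine (h.absorb (gf_loc hJ)).subst (θ := (rep : Wr f c → List B)) (V := Set.univ)
      (ν' := fun _ => 0) (γ' := fun _ => 1) ?_ ?_ ?_ ?_ ?_ ?_ ?_ v trivial
    · intro t; simp [rep]
    · intro t; simp
    · exact fun _ _ _ => trivial
    · exact fun _ _ _ _ => trivial
    · intro v _ s'
      refine (RG.loc s' _ (Loc.const (yf f v))).cast fun Ω => ?_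
      rw [yf_append, yf_flat, add_zero]
    · exact fun _ _ _ => rfl
    · exact Loc.const 1
  have h1 : SH 1 (⋃ p : Pr f c, subL D (P329.cat (PL p) {X | ∃ Ω ∈ {Ω : List (Wr f c) |
      F (repP p ++ (Ω.map rep).flatten) = 1}, X ∈ subf WL Ω})) := by
    refine SH.iUnion fun p => ?_
    rw [subL_cat]
    refine SH.cat ?_ (PL_sf hD hf p).of_zero
    rw [← subL_ext]
    exact hP _ 0 c _ (hG (repP p)) α _ (good_WL hD hf)
  refine Eq.mp (congrArg (SH 1) ?_) h1
  rw [← subL_iUnion]
  congr 1
  ext X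
  simp only [Set.mem_iUnion]
  constructor
  · rintro ⟨p, V, hV, X', ⟨Ω, hΩ, hX'⟩, rfl⟩
    change F (V ++ X') = 1
    rw [PL_rep hJ h hV, rep_eq hJ h Ω X' _ hX']
    exact hΩ
  · intro hX
    obtain ⟨p, V, X', hV, hX', rfl⟩ := decomp (f := f) (c := c) X
    obtain ⟨Ω, hΩ⟩ := ws_decomp (W := (WL : Wr f c → Set (List B))) WL_cover _ _ le_rfl hX'
    refine ⟨p, V, hV, X', ⟨Ω, ?_, hΩ⟩, rfl⟩
    change F (_ ++ _) = 1
    rw [← rep_eq hJ h Ω X' _ hΩ, ← PL_rep hJ h hV]
    exact hX

end step

end Vale.Agent.P329.H157
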