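import Vale.Agent.P329.H157.Ctx
import Vale.Agent.P329.H157.CtxDef

namespace Vale.Agent.P329.H157

section general

variable {α σ γ : Type}

/-- The word annotated by the outputs of the states before each letter. -/
def ann (δ : σ → α → σ) (out : σ → γ) : σ → List α → List (γ × α)
  | _, [] => []
  | q, a :: w => (out q, a) :: ann δ out (δ q a) w

theorem ann_append (δ : σ → α → σ) (out : σ → γ) (u v : List α) : ∀ q,
    ann δ out q (u ++ v) = ann δ out q u ++ ann δ out (u.foldl δ q) v := by
  induction u with
  | nil => intro q; rfl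
  | cons a u ih => intro q; rw [List.cons_append, ann, ih, ann]; rfl

theorem ann_length (δ : σ → α → σ) (out : σ → γ) (w : List α) : ∀ q,
    (ann δ out q w).length = w.length := by
  induction w with
  | nil => intro q; rfl
  | cons a w ih => intro q; rw [ann, List.length_cons, ih, List.length_cons]

/-- Pulling back star-free languages along the annotation. -/
theorem ann_sh [Finite σ] (δ : σ → α → σ) (out : σ → γ)
    (h : ∀ q q', SH 1 {u : List α | u.foldl δ q = q'}) :
    ∀ (e : GRE (γ × α)), e.height = 0 → ∀ q, SH 1 {w : List α | ann δ out q w ∈ e.lang} := by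
  classical
  intro e
  induction e with
  | zero =>
    intro _ q
    exact SH.empty
  | one =>
    intro _ q
    refine Eq.mp (congrArg (SH 1) ?_) (SH.eps (k := 1) (α := α))
    ext w
    constructor
    · intro hw
      rw [Set.mem_singleton_iff] at hw
      subst hw
      rfl
    · intro hw
      have h1 : ann δ out q w = [] := hw
      have h2 := ann_length δ out w q
      rw [h1] at h2
      exact List.length_eq_zero_iff.mp h2.symm
  | letter ga =>
    intro _ q
    obtain ⟨g, a⟩ := ga
    by_cases hg : out q = g
    · refine Eq.mp (congrArg (SH 1) ?_) (SH.single (k := 1) a)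
      ext w
      constructor
      · intro hw
        rw [Set.mem_singleton_iff] at hw
        subst hw
        change [(out q, a)] = [(g, a)]
        rw [hg]
      · intro hw
        have h1 : ann δ out q w = [(g, a)] := hw
        cases w with
        | nil => cases h1
        | cons x w =>
          rw [ann, List.cons.injEq, Prod.mk.injEq] at h1
          have h2 := ann_length δ out w (δ q x)
          rw [h1.2] at h2
          have h3 : w = [] := List.length_eq_zero_iff.mp h2.symm
          rw [h3, h1.1.2]
          rfl
    · refine Eq.mp (congrArg (SH 1) ?_) (SH.empty (k := 1) (α := α))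
      ext w
      constructor
      · intro hw; exact absurd hw (Set.notMem_empty _)
      · intro hw
        have h1 : ann δ out q w = [(g, a)] := hw
        cases w with
        | nil => cases h1
        | cons x w =>
          rw [ann, List.cons.injEq, Prod.mk.injEq] at h1
          exact absurd h1.1.1 hg
  | union e f he hf =>
    intro h0 q
    have h0' : max e.height f.height = 0 := h0
    exact (he (by omega) q).union (hf (by omega) q)
  | concat e f he hf =>
    intro h0 q
    have h0' : max e.height f.height = 0 := h0
    have h1 : SH 1 (⋃ q' : σ, cat ({w : List α | ann δ out q w ∈ e.lang} ∩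
        {u : List α | u.foldl δ q = q'}) {w : List α | ann δ out q' w ∈ f.lang}) :=
      SH.iUnion fun q' => ((he (by omega) q).inter (h q q')).cat (hf (by omega) q')
    refine Eq.mp (congrArg (SH 1) ?_) h1
    ext w
    rw [Set.mem_iUnion]
    constructor
    · rintro ⟨q', u, ⟨h2, h3⟩, v, h4, rfl⟩
      rw [Set.mem_ofPred_eq] at h3
      subst h3
      exact ⟨_, h2, _, h4, (ann_append δ out u v q).symm⟩
    · rintro ⟨s, hs, t, ht, he'⟩
      have h5 : ann δ out q w = ann δ out q (w.take s.length) ++
          ann δ out ((w.take s.length).foldl δ q) (w.drop s.length) := by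
        rw [← ann_append, List.take_append_drop]
      have hlen : (ann δ out q (w.take s.length)).length = s.length := by
        rw [ann_length, List.length_take]
        have h6 := congrArg List.length he'
        rw [List.length_append, ann_length] at h6
        omega
      have h7 : s = ann δ out q (w.take s.length) ∧
          t = ann δ out ((w.take s.length).foldl δ q) (w.drop s.length) :=
        List.append_inj (he'.trans h5) hlen.symm
      refine ⟨_, w.take s.length, ⟨?_, rfl⟩, w.drop s.length, ?_, List.take_append_drop _ _⟩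
      · rw [Set.mem_ofPred_eq, ← h7.1]; exact hs
      · rw [Set.mem_ofPred_eq, ← h7.2]; exact ht
  | compl e he =>
    intro h0 q
    exact (he h0 q).compl
  | star e _ =>
    intro h0
    exact absurd h0 (Nat.succ_ne_zero _)

theorem ann_zipIdx (δ : σ → α → σ) (out : σ → γ) (q : σ) (w : List α) :
    ann δ out q w = w.zipIdx.map fun x => (out ((w.take x.2).foldl δ q), x.1) := by
  induction w using List.reverseRecOn with
  | nil => rfl
  | append_singleton w b ih =>
    rw [ann_append, ih, List.zipIdx_append, List.map_append]
    congr 1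
    · apply List.map_congr_left
      rintro ⟨x, i⟩ hx
      have hi : i < w.length := by
        have := List.mem_zipIdx hx
        omega
      change (out ((w.take i).foldl δ q), x) = (out (((w ++ [b]).take i).foldl δ q), x)
      rw [List.take_append_of_le_length hi.le]
    · simp only [List.zipIdx_cons, List.zipIdx_nil, List.map_cons, List.map_nil, Nat.zero_add]
      rw [List.take_append_of_le_length le_rfl, List.take_length]
      rfl

end general

section group

variable {α G : Type} [Group G]

theorem foldl_group (f : α → G) (w : List α) : ∀ g : G,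
    w.foldl (fun g a => g * f a) g = g * (w.map f).prod := by
  induction w with
  | nil => intro g; simp
  | cons a w ih => intro g; rw [List.foldl_cons, ih, List.map_cons, List.prod_cons, mul_assoc]

/-- Star-free languages over words annotated by a group. -/
theorem group_ann [Finite G] (f : α → G)
    (h : ∀ S : Set G, SH 1 {w : List α | (w.map f).prod ∈ S})
    (e : GRE (G × α)) (he : e.height = 0) :
    SH 1 {w : List α | (w.zipIdx.map fun x => (((w.take x.2).map f).prod, x.1)) ∈ e.lang} := by
  have h1 := ann_sh (fun g a => g * f a) (id : G → G) (fun q q' => by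
    refine Eq.mp (congrArg (SH 1) ?_) (h {q⁻¹ * q'})
    ext w
    rw [Set.mem_ofPred_eq, Set.mem_ofPred_eq, foldl_group, Set.mem_singleton_iff,
      eq_inv_mul_iff_mul_eq]) e he 1
  refine Eq.mp (congrArg (SH 1) ?_) h1
  ext w
  rw [Set.mem_ofPred_eq, Set.mem_ofPred_eq, ann_zipIdx]
  simp only [foldl_group, one_mul, id]

end group

section ctx

variable {α G : Type} [Group G]

/-- states: the clock, the last letters (most recent first), the value -/
abbrev CS (α G : Type) (l c : ℕ) : Type := ZMod (2 ^ l) × {Z : List α // Z.length ≤ c} × G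

/-- transitions -/
def cstep {l c : ℕ} (ψ : ZMod (2 ^ l) → List α → α → G) (q : CS α G l c) (a : α) : CS α G l c :=
  (q.1 + 1, ⟨(a :: q.2.1.1).take c, (List.length_take_le c _)⟩,
    q.2.2 * ψ q.1 q.2.1.1.reverse a)

theorem take_take_append {c : ℕ} (X Z : List α) (a : α) (h : Z.length ≤ c) :
    (a :: (X ++ Z).take c).take c = (a :: (X ++ Z)).take c := by
  cases c with
  | zero => simp
  | succ c =>
    rw [List.take_succ_cons, List.take_succ_cons, List.take_take, Nat.min_eq_left (Nat.le_succ c)]

theorem cstep_run {l c : ℕ} (ψ : ZMod (2 ^ l) → List α → α → G) (q : CS α G l c) (w : List α) :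
    (w.foldl (cstep ψ) q).1 = q.1 + (w.length : ZMod (2 ^ l)) ∧
    (w.foldl (cstep ψ) q).2.1.1 = (w.reverse ++ q.2.1.1).take c ∧
    (w.foldl (cstep ψ) q).2.2 = q.2.2 *
      hp (fun X b => ψ (q.1 + (X.length : ZMod (2 ^ l))) ((X ++ q.2.1.1).take c).reverse b)
        w.reverse := by
  induction w using List.reverseRecOn with
  | nil =>
    refine ⟨by simp, ?_, by simp [hp]⟩
    change q.2.1.1 = _
    rw [List.reverse_nil, List.nil_append, List.take_of_length_le q.2.1.2]
  | append_singleton w b ih =>
    obtain ⟨h1, h2, h3⟩ := ih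
    rw [List.foldl_append, List.foldl_cons, List.foldl_nil]
    refine ⟨?_, ?_, ?_⟩
    · change (w.foldl (cstep ψ) q).1 + 1 = _
      rw [h1, List.length_append, List.length_singleton]
      push_cast; ring
    · change (b :: (w.foldl (cstep ψ) q).2.1.1).take c = _
      rw [h2, take_take_append _ _ _ q.2.1.2]
      simp
    · change (w.foldl (cstep ψ) q).2.2 * ψ (w.foldl (cstep ψ) q).1
        ((w.foldl (cstep ψ) q).2.1.1).reverse b = _
      rw [h1, h2, h3]
      have : (w ++ [b]).reverse = b :: w.reverse := by simp
      rw [this, hp, mul_assoc, List.length_reverse]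

theorem loc_sh [Finite α] {l c : ℕ} (p : List α → Prop)
    (h : ∀ X Y : List α, X.length % 2 ^ l = Y.length % 2 ^ l → X.take c = Y.take c → (p X ↔ p Y)) :
    SH 1 {w : List α | p w.reverse} := by
  classical
  have h1 : Loc l c fun X : List α => if p X then (1 : ZMod 2) else 0 := fun X Y h1 h2 =>
    if_congr (h X Y h1 h2) rfl rfl
  have h2 := letters_sh (RG.loc 0 _ h1)
  refine Eq.mp (congrArg (SH 1) ?_) h2
  ext w
  change (if p w.reverse then (1 : ZMod 2) else 0) = 1 ↔ p w.reverse
  by_cases hp : p w.reverse
  · rw [if_pos hp]; exact ⟨fun _ => hp, fun _ => rfl⟩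
  · rw [if_neg hp]
    exact ⟨fun h' => absurd h' (by decide), fun h' => absurd h' hp⟩

theorem take_app_congr {c : ℕ} {X Y Z : List α} (h : X.take c = Y.take c) :
    (X ++ Z).take c = (Y ++ Z).take c := by
  have h1 : ∀ W : List α, (W ++ Z).take c = (W.take c ++ Z).take c := by
    intro W
    rw [List.take_append, List.take_append, List.take_take, Nat.min_self, List.length_take]
    rcases Nat.le_total W.length c with h2 | h2
    · rw [Nat.min_eq_right h2]
    · rw [Nat.min_eq_left h2, Nat.sub_self, Nat.sub_eq_zero_of_le h2]
  rw [h1 X, h1 Y, h]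

theorem cstep_sh [Finite α] [Finite G] (hG : IsPGroup 2 G) {l c : ℕ}
    (ψ : ZMod (2 ^ l) → List α → α → G) (q q' : CS α G l c) :
    SH 1 {u : List α | u.foldl (cstep ψ) q = q'} := by
  have h1 := loc_sh (α := α) (l := l) (c := c)
    (fun X => q.1 + (X.length : ZMod (2 ^ l)) = q'.1 ∧ (X ++ q.2.1.1).take c = q'.2.1.1) (by
      intro X Y h1 h2
      rw [zmod_len h1, take_app_congr h2])
  have h2 := ctx_cap hG (good_letters (α := α))
    (χ := fun X b => ψ (q.1 + (X.length : ZMod (2 ^ l))) ((X ++ q.2.1.1).take c).reverse b)
    (l := l) (c := c) (by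
      intro X Y b h1 h2
      change ψ _ _ _ = ψ _ _ _
      rw [zmod_len h1, take_app_congr h2]) {q.2.2⁻¹ * q'.2.2}
  refine Eq.mp (congrArg (SH 1) ?_) (h1.inter h2)
  ext w
  obtain ⟨h3, h4, h5⟩ := cstep_run ψ q w
  constructor
  · rintro ⟨⟨h6, h7⟩, X, hX, hw⟩
    rw [sub_letters, Set.mem_singleton_iff] at hw
    subst hw
    rw [List.reverse_reverse] at h6 h7 h4 h5
    rw [List.length_reverse] at h3
    rw [Set.mem_ofPred_eq, Set.mem_singleton_iff, eq_inv_mul_iff_mul_eq] at hX
    refine Prod.ext (h3.trans h6) (Prod.ext (Subtype.ext (h4.trans h7)) (h5.trans hX))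
  · intro h
    rw [Set.mem_ofPred_eq] at h
    rw [h] at h3 h4 h5
    refine ⟨⟨?_, h4.symm⟩, w.reverse, ?_, by rw [sub_letters, List.reverse_reverse]; rfl⟩
    · rw [List.length_reverse]; exact h3.symm
    · rw [Set.mem_ofPred_eq, Set.mem_singleton_iff, eq_inv_mul_iff_mul_eq]
      exact h5.symm

theorem ctxProd_eq (l c : ℕ) (ψ : ZMod (2 ^ l) → List α → α → G) (w : List α) :
    (w.foldl (cstep ψ) ((0, ⟨[], Nat.zero_le c⟩, 1) : CS α G l c)).2.2 = ctxProd l c ψ w := by
  rw [(cstep_run ψ _ w).2.2, one_mul, ctxProd, ← hp_eq]
  simp only [zero_add, List.append_nil]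

/-- Star-free languages over words annotated by a context product. -/
theorem ctx_ann [Finite α] [Finite G] (hG : IsPGroup 2 G) (l c : ℕ)
    (ψ : ZMod (2 ^ l) → List α → α → G) (e : GRE (G × α)) (he : e.height = 0) :
    SH 1 {w : List α | (w.zipIdx.map fun x => (ctxProd l c ψ (w.take x.2), x.1)) ∈ e.lang} := by
  have hfin : Finite {Z : List α // Z.length ≤ c} :=
    (List.finite_length_le α c).to_subtype
  have h1 := ann_sh (cstep ψ) (fun q : CS α G l c => q.2.2) (cstep_sh hG ψ) e he
    (0, ⟨[], Nat.zero_le c⟩, 1)
  refine Eq.mp (congrArg (SH 1) ?_) h1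
  ext w
  rw [Set.mem_ofPred_eq, Set.mem_ofPred_eq, ann_zipIdx]
  simp only [ctxProd_eq]

end ctx

end Vale.Agent.P329.H157
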